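import Vale.Agent.P068.Defs

/-! # P068: the continuum hypothesis implies the splitting hypothesis -/

open Set
open scoped Cardinal

namespace P068

/-- Countably many infinite sets of natural numbers are split by one set. -/
theorem countable_split (D : Set (Set ℕ)) (hD : D.Countable) (hinf : ∀ A ∈ D, A.Infinite) :
    ∃ S : Set ℕ, ∀ A ∈ D, (A ∩ S).Infinite ∧ (A \ S).Infinite := by
  rcases D.eq_empty_or_nonempty with rfl | hne
  · exact ⟨∅, fun A hA => hA.elim⟩
  obtain ⟨f, rfl⟩ := hD.exists_eq_range hne
  obtain ⟨φ, hφ, hmem⟩ := Filter.extraction_forall_of_frequently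
    (P := fun n k => k ∈ f (Nat.unpair (n / 2)).1) (fun n => by
      have := hinf (f (Nat.unpair (n / 2)).1) (mem_range_self _)
      exact Nat.frequently_atTop_iff_infinite.2 this)
  refine ⟨{x | ∃ m, x = φ (2 * m)}, ?_⟩
  rintro _ ⟨i, rfl⟩
  have hinj : ∀ c, Function.Injective (fun j : ℕ => φ (2 * Nat.pair i j + c)) := by
    intro c j j' hjj
    have h1 := hφ.injective hjj
    have h2 : Nat.pair i j = Nat.pair i j' := by omega
    exact (Nat.pair_eq_pair.1 h2).2
  constructor
  · refine (Set.infinite_range_of_injective (hinj 0)).mono ?_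
    rintro _ ⟨j, rfl⟩
    refine ⟨?_, Nat.pair i j, rfl⟩
    have := hmem (2 * Nat.pair i j + 0)
    have e : (2 * Nat.pair i j + 0) / 2 = Nat.pair i j := by omega
    rw [e, Nat.unpair_pair] at this
    exact this
  · refine (Set.infinite_range_of_injective (hinj 1)).mono ?_
    rintro _ ⟨j, rfl⟩
    refine ⟨?_, ?_⟩
    · have := hmem (2 * Nat.pair i j + 1)
      have e : (2 * Nat.pair i j + 1) / 2 = Nat.pair i j := by omega
      rw [e, Nat.unpair_pair] at this
      exact this
    · rintro ⟨m, hm⟩
      have := hφ.injective hm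
      omega

/-- The continuum hypothesis implies the splitting hypothesis. -/
theorem splittingHyp_of_CH (h : (ℵ₁ : Cardinal.{0}) = 𝔠) : SplittingHyp := by
  intro D hD hinf
  apply countable_split D _ hinf
  rw [← Cardinal.le_aleph0_iff_set_countable, ← Order.lt_succ_iff, Cardinal.succ_aleph0, h]
  exact hD

end P068
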