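import Vale.Agent.P068.Step

/-! # P068: conditions and the extension lemmas -/

open Set
open scoped Cardinal

namespace P068

section small

lemma small_union {α : Type} {A B : Set α} (hA : #A < 𝔠) (hB : #B < 𝔠) :
    #(A ∪ B : Set α) < 𝔠 :=
  lt_of_le_of_lt (Cardinal.mk_union_le _ _)
    (Cardinal.add_lt_of_lt Cardinal.aleph0_le_continuum hA hB)

lemma small_image {α β : Type} {A : Set α} (hA : #A < 𝔠) (f : α → β) : #(f '' A) < 𝔠 :=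
  lt_of_le_of_lt Cardinal.mk_image_le hA

lemma small_insert {α : Type} {A : Set α} (hA : #A < 𝔠) (x : α) :
    #(insert x A : Set α) < 𝔠 := by
  rw [insert_eq]
  refine small_union ?_ hA
  refine lt_of_le_of_lt ?_ Cardinal.aleph0_lt_continuum
  exact Cardinal.le_aleph0_iff_set_countable.2 (countable_singleton x)

/-- Splitting relative to a set. -/
lemma split_rel (h : SplittingHyp) (G : Set (Set (ℕ ⊕ ℕ))) (hG : #G < 𝔠) (R : Set (ℕ ⊕ ℕ)) :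
    ∃ S : Set (ℕ ⊕ ℕ), ∀ A ∈ G, (R ∩ A).Infinite →
      (R ∩ A ∩ S).Infinite ∧ ((R ∩ A) \ S).Infinite := by
  let e : ℕ ⊕ ℕ ≃ ℕ := Equiv.natSumNatEquivNat
  obtain ⟨S, hS⟩ := h ((fun A => e '' (R ∩ A)) '' {A ∈ G | (R ∩ A).Infinite})
    (small_image (lt_of_le_of_lt (Cardinal.mk_le_mk_of_subset (sep_subset _ _)) hG) _) (by
      rintro _ ⟨A, ⟨hA, hA'⟩, rfl⟩
      exact hA'.image e.injective.injOn)
  refine ⟨e ⁻¹' S, fun A hA hinf => ?_⟩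
  obtain ⟨h1, h2⟩ := hS _ ⟨A, ⟨hA, hinf⟩, rfl⟩
  constructor
  · intro hf
    apply h1
    refine (hf.image e).subset ?_
    rintro _ ⟨⟨x, hx, rfl⟩, hxS⟩
    exact ⟨x, ⟨hx, hxS⟩, rfl⟩
  · intro hf
    apply h2
    refine (hf.image e).subset ?_
    rintro _ ⟨⟨x, hx, rfl⟩, hxS⟩
    exact ⟨x, ⟨hx, hxS⟩, rfl⟩

end small

section cond
variable {O : Type} [LinearOrder O]

/-- Facts: labels of subsets of a bundle, and bases. -/
abbrev Fct (O : Type) : Type := (Bool × Set ℕ × Lab O) ⊕ (Bool × Set (ℕ ⊕ ℕ))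

def LF (t : Bool) (Y : Set ℕ) (l : Lab O) : Fct O := Sum.inl (t, Y, l)

def BF (t : Bool) (B : Set (ℕ ⊕ ℕ)) : Fct O := Sum.inr (t, B)

structure Good (C : Set (Fct O)) : Prop where
  mono : ∀ s Y l Z m, LF s Y l ∈ C → LF s Z m ∈ C → (Y \ Z).Finite → l ≤ m
  sep : ∀ t B B', BF t B ∈ C → BF t B' ∈ C → B ≠ B' → (B \ B').Infinite
  lab : ∀ t B, BF t B ∈ C → ∃ p l, LF t (pt B) p ∈ C ∧ LF (!t) (lo B) l ∈ C ∧ Allowed p l
  emp : ∀ t, ∃ l, LF t ∅ l ∈ C ∧ IsW l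
  unv : ∀ t, ∃ l, LF t univ l ∈ C ∧ IsV l

omit [LinearOrder O] in
lemma LF_eq {s t : Bool} {Y Z : Set ℕ} {l m : Lab O} (h : (LF s Y l : Fct O) = LF t Z m) :
    s = t ∧ Y = Z ∧ l = m := by
  have := Sum.inl_injective h
  simpa using this

omit [LinearOrder O] in
lemma BF_eq {s t : Bool} {B B' : Set (ℕ ⊕ ℕ)} (h : (BF s B : Fct O) = BF t B') :
    s = t ∧ B = B' := by
  have := Sum.inr_injective h
  simpa using this

omit [LinearOrder O] in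
lemma LF_ne_BF {s t : Bool} {Y : Set ℕ} {l : Lab O} {B : Set (ℕ ⊕ ℕ)} :
    (LF s Y l : Fct O) ≠ BF t B := Sum.inl_ne_inr

lemma Good.add_label {C : Set (Fct O)} (hC : Good C) (s : Bool) (Y : Set ℕ) (l : Lab O)
    (h1 : ∀ Z m, LF s Z m ∈ C → (Z \ Y).Finite → m ≤ l)
    (h2 : ∀ Z m, LF s Z m ∈ C → (Y \ Z).Finite → l ≤ m) : Good (insert (LF s Y l) C) where
  mono := by
    intro t Y' l' Z m hY hZ hf
    rcases hY with hY | hY
    · obtain ⟨rfl, rfl, rfl⟩ := LF_eq hY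
      rcases hZ with hZ | hZ
      · obtain ⟨-, rfl, rfl⟩ := LF_eq hZ
        exact le_rfl
      · exact h2 _ _ hZ hf
    · rcases hZ with hZ | hZ
      · obtain ⟨rfl, rfl, rfl⟩ := LF_eq hZ
        exact h1 _ _ hY hf
      · exact hC.mono _ _ _ _ _ hY hZ hf
  sep := by
    intro t B B' hB hB' hne
    rcases hB with hB | hB
    · exact (LF_ne_BF hB.symm).elim
    rcases hB' with hB' | hB'
    · exact (LF_ne_BF hB'.symm).elim
    exact hC.sep t B B' hB hB' hne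
  lab := by
    intro t B hB
    rcases hB with hB | hB
    · exact (LF_ne_BF hB.symm).elim
    obtain ⟨p, l, h1, h2, h3⟩ := hC.lab t B hB
    exact ⟨p, l, Or.inr h1, Or.inr h2, h3⟩
  emp := fun t => by
    obtain ⟨l, h1, h2⟩ := hC.emp t
    exact ⟨l, Or.inr h1, h2⟩
  unv := fun t => by
    obtain ⟨l, h1, h2⟩ := hC.unv t
    exact ⟨l, Or.inr h1, h2⟩

lemma Good.add_base {C : Set (Fct O)} (hC : Good C) (t : Bool) (B : Set (ℕ ⊕ ℕ)) (p l : Lab O)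
    (hp : LF t (pt B) p ∈ C) (hl : LF (!t) (lo B) l ∈ C) (hall : Allowed p l)
    (h : ∀ B', BF t B' ∈ C → (B \ B').Infinite ∧ (B' \ B).Infinite) :
    Good (insert (BF t B) C) where
  mono := by
    intro t Y' l' Z m hY hZ hf
    rcases hY with hY | hY
    · exact (LF_ne_BF hY).elim
    rcases hZ with hZ | hZ
    · exact (LF_ne_BF hZ).elim
    exact hC.mono _ _ _ _ _ hY hZ hf
  sep := by
    intro s B₁ B₂ hB₁ hB₂ hne
    rcases hB₁ with hB₁ | hB₁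
    · obtain ⟨rfl, rfl⟩ := BF_eq hB₁
      rcases hB₂ with hB₂ | hB₂
      · obtain ⟨-, rfl⟩ := BF_eq hB₂
        exact (hne rfl).elim
      · exact (h _ hB₂).1
    · rcases hB₂ with hB₂ | hB₂
      · obtain ⟨rfl, rfl⟩ := BF_eq hB₂
        exact (h _ hB₁).2
      · exact hC.sep _ _ _ hB₁ hB₂ hne
  lab := by
    intro s B₁ hB₁
    rcases hB₁ with hB₁ | hB₁
    · obtain ⟨rfl, rfl⟩ := BF_eq hB₁
      exact ⟨p, l, Or.inr hp, Or.inr hl, hall⟩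
    obtain ⟨p, l, h1, h2, h3⟩ := hC.lab s B₁ hB₁
    exact ⟨p, l, Or.inr h1, Or.inr h2, h3⟩
  emp := fun t => by
    obtain ⟨l, h1, h2⟩ := hC.emp t
    exact ⟨l, Or.inr h1, h2⟩
  unv := fun t => by
    obtain ⟨l, h1, h2⟩ := hC.unv t
    exact ⟨l, Or.inr h1, h2⟩

lemma Good.label_ext [WellFoundedLT O] (hO : ∀ S : Set O, #S < 𝔠 → ∃ b, ∀ a ∈ S, a < b)
    {C : Set (Fct O)} (hC : Good C) (hc : #C < 𝔠) (s : Bool) (Y : Set ℕ) :
    ∃ l, Good (insert (LF s Y l) C) := by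
  let A : Set (Lab O) := {m | ∃ Z, LF s Z m ∈ C ∧ (Z \ Y).Finite}
  let B : Set (Lab O) := {m | ∃ Z, LF s Z m ∈ C ∧ (Y \ Z).Finite}
  have hA : #A < 𝔠 := by
    let g : Fct O → Option (Lab O) := Sum.elim (fun x => some x.2.2) (fun _ => none)
    have h1 : some '' A ⊆ g '' C := by
      rintro _ ⟨m, ⟨Z, hZ, -⟩, rfl⟩
      exact ⟨_, hZ, rfl⟩
    calc #A = #(some '' A) := (Cardinal.mk_image_eq (Option.some_injective _)).symm
      _ ≤ #(g '' C) := Cardinal.mk_le_mk_of_subset h1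
      _ < 𝔠 := small_image hc g
  obtain ⟨l, h1, h2⟩ := interpolate hO A B hA (by
    rintro a ⟨Z, hZ, hZf⟩ b ⟨Z', hZ', hZf'⟩
    refine hC.mono _ _ _ _ _ hZ hZ' ((hZf.union hZf').subset ?_)
    rintro x ⟨hx, hx'⟩
    by_cases hY : x ∈ Y
    · exact Or.inr ⟨hY, hx'⟩
    · exact Or.inl ⟨hx, hY⟩)
  exact ⟨l, hC.add_label s Y l (fun Z m hZ hf => h1 _ ⟨Z, hZ, hf⟩)
    (fun Z m hZ hf => h2 _ ⟨Z, hZ, hf⟩)⟩

/-- The generic base. -/
lemma Good.generic (h : SplittingHyp) (hO : ∀ a b : O, ∃ c, a < c ∧ b < c)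
    {C : Set (Fct O)} (hC : Good C) (hc : #C < 𝔠) (t : Bool) (I X : Set (ℕ ⊕ ℕ)) (hIX : I ⊆ X)
    (p₀ p₁ l₀ l₁ : Lab O) (hp₀ : LF t (pt I) p₀ ∈ C) (hp₁ : LF t (pt X) p₁ ∈ C)
    (hl₀ : LF (!t) (lo X) l₀ ∈ C) (hl₁ : LF (!t) (lo I) l₁ ∈ C)
    (hW : ¬ (IsW p₁ ∧ p₁ ≤ l₀)) (hV : ¬ (IsV p₀ ∧ l₁ ≤ p₀))
    (hX : ∀ B, BF t B ∈ C → (X \ B).Infinite) (hI : ∀ B, BF t B ∈ C → (B \ I).Infinite) :
    ∃ B, I ⊆ B ∧ B ⊆ X ∧ ∃ p l,
      Good (insert (BF t B) (insert (LF (!t) (lo B) l) (insert (LF t (pt B) p) C))) := by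
  have hp : p₀ ≤ p₁ := by
    refine hC.mono _ _ _ _ _ hp₀ hp₁ ?_
    convert finite_empty
    exact sdiff_eq_empty.2 (preimage_mono hIX)
  have hl : l₀ ≤ l₁ := by
    refine hC.mono _ _ _ _ _ hl₀ hl₁ ?_
    convert finite_empty
    exact sdiff_eq_empty.2 (compl_subset_compl.2 (preimage_mono hIX))
  obtain ⟨p, l, hp0, hp1, hl0, hl1, hall⟩ := choose_labels hO hp hl hW hV
  -- the splitter
  let bs : Fct O → Set (ℕ ⊕ ℕ) := Sum.elim (fun _ => ∅) (fun x => x.2)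
  let zs : Fct O → Set ℕ := Sum.elim (fun x => x.2.1) (fun _ => ∅)
  let R := X \ I
  let G : Set (Set (ℕ ⊕ ℕ)) :=
    ((bs '' C) ∪ ((fun f => (bs f)ᶜ) '' C)) ∪
    (((fun f => Sum.inl '' (zs f)) '' C) ∪ ((fun f => Sum.inl '' (zs f)ᶜ) '' C)) ∪
    (((fun f => Sum.inr '' (zs f)) '' C) ∪ ((fun f => Sum.inr '' (zs f)ᶜ) '' C))
  have hG : #G < 𝔠 :=
    small_union (small_union (small_union (small_image hc _) (small_image hc _))
      (small_union (small_image hc _) (small_image hc _)))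
      (small_union (small_image hc _) (small_image hc _))
  obtain ⟨S, hS⟩ := split_rel h G hG R
  have G1 : ∀ B, BF t B ∈ C → B ∈ G := fun B hB => Or.inl (Or.inl (Or.inl ⟨_, hB, rfl⟩))
  have G2 : ∀ B, BF t B ∈ C → Bᶜ ∈ G := fun B hB => Or.inl (Or.inl (Or.inr ⟨_, hB, rfl⟩))
  have G3 : ∀ s Z m, LF s Z m ∈ C → Sum.inl '' Z ∈ G := fun s Z m hB =>
    Or.inl (Or.inr (Or.inl ⟨_, hB, rfl⟩))
  have G4 : ∀ s Z m, LF s Z m ∈ C → Sum.inl '' Zᶜ ∈ G := fun s Z m hB =>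
    Or.inl (Or.inr (Or.inr ⟨_, hB, rfl⟩))
  have G5 : ∀ s Z m, LF s Z m ∈ C → Sum.inr '' Z ∈ G := fun s Z m hB =>
    Or.inr (Or.inl ⟨_, hB, rfl⟩)
  have G6 : ∀ s Z m, LF s Z m ∈ C → Sum.inr '' Zᶜ ∈ G := fun s Z m hB =>
    Or.inr (Or.inr ⟨_, hB, rfl⟩)
  -- in the form needed
  have key1 : ∀ A ∈ G, (R ∩ A ∩ S).Finite → (R ∩ A).Finite := by
    intro A hA hf
    by_contra hcon
    exact (hS A hA hcon).1 hf
  have key2 : ∀ A ∈ G, ((R ∩ A) \ S).Finite → (R ∩ A).Finite := by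
    intro A hA hf
    by_contra hcon
    exact (hS A hA hcon).2 hf
  let B : Set (ℕ ⊕ ℕ) := I ∪ (X ∩ S)
  have hIB : I ⊆ B := subset_union_left
  have hBX : B ⊆ X := union_subset hIX inter_subset_left
  have memB : ∀ x, x ∈ B ↔ x ∈ I ∨ (x ∈ X ∧ x ∈ S) := fun x => Iff.rfl
  have memR : ∀ x, x ∈ R ↔ x ∈ X ∧ x ∉ I := fun x => Iff.rfl
  have hinl : ∀ {Y : Set ℕ}, (Sum.inl '' Y : Set (ℕ ⊕ ℕ)).Finite → Y.Finite := fun {Y} hf =>
    Set.Finite.of_finite_image hf Sum.inl_injective.injOn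
  have hinr : ∀ {Y : Set ℕ}, (Sum.inr '' Y : Set (ℕ ⊕ ℕ)).Finite → Y.Finite := fun {Y} hf =>
    Set.Finite.of_finite_image hf Sum.inr_injective.injOn
  -- label comparisons
  have c1 : ∀ Z m, LF t Z m ∈ C → (Z \ pt B).Finite → m ≤ p := by
    intro Z m hZ hf
    refine le_trans (hC.mono _ _ _ _ _ hZ hp₀ ?_) hp0
    have hR : (R ∩ Sum.inl '' Z).Finite := by
      apply key2 _ (G3 _ _ _ hZ)
      refine (hf.image Sum.inl).subset ?_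
      rintro _ ⟨⟨hxR, x, hx, rfl⟩, hxS⟩
      refine ⟨x, ⟨hx, ?_⟩, rfl⟩
      rintro (hxI | hxS')
      · exact hxR.2 hxI
      · exact hxS hxS'.2
    apply hinl
    refine (hR.union (hf.image Sum.inl)).subset ?_
    rintro _ ⟨x, ⟨hx, hxI⟩, rfl⟩
    by_cases hxX : Sum.inl x ∈ X
    · exact Or.inl ⟨⟨hxX, hxI⟩, x, hx, rfl⟩
    · exact Or.inr ⟨x, ⟨hx, fun hxB => hxX (hBX hxB)⟩, rfl⟩
  have c2 : ∀ Z m, LF t Z m ∈ C → (pt B \ Z).Finite → p ≤ m := by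
    intro Z m hZ hf
    refine le_trans hp1 (hC.mono _ _ _ _ _ hp₁ hZ ?_)
    have hR : (R ∩ Sum.inl '' Zᶜ).Finite := by
      apply key1 _ (G4 _ _ _ hZ)
      refine (hf.image Sum.inl).subset ?_
      rintro _ ⟨⟨hxR, x, hx, rfl⟩, hxS⟩
      exact ⟨x, ⟨Or.inr ⟨hxR.1, hxS⟩, hx⟩, rfl⟩
    apply hinl
    refine (hR.union (hf.image Sum.inl)).subset ?_
    rintro _ ⟨x, ⟨hxX, hx⟩, rfl⟩
    by_cases hxI : Sum.inl x ∈ I
    · exact Or.inr ⟨x, ⟨hIB hxI, hx⟩, rfl⟩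
    · exact Or.inl ⟨⟨hxX, hxI⟩, x, hx, rfl⟩
  have c3 : ∀ Z m, LF (!t) Z m ∈ C → (Z \ lo B).Finite → m ≤ l := by
    intro Z m hZ hf
    refine le_trans (hC.mono _ _ _ _ _ hZ hl₀ ?_) hl0
    have hR : (R ∩ Sum.inr '' Z).Finite := by
      apply key1 _ (G5 _ _ _ hZ)
      refine (hf.image Sum.inr).subset ?_
      rintro _ ⟨⟨hxR, x, hx, rfl⟩, hxS⟩
      exact ⟨x, ⟨hx, fun hxB => hxB (Or.inr ⟨hxR.1, hxS⟩)⟩, rfl⟩
    apply hinr
    refine (hR.union (hf.image Sum.inr)).subset ?_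
    rintro _ ⟨x, ⟨hx, hxX⟩, rfl⟩
    have hxX' : Sum.inr x ∈ X := by
      by_contra hcon
      exact hxX hcon
    by_cases hxI : Sum.inr x ∈ I
    · exact Or.inr ⟨x, ⟨hx, fun hxB => hxB (hIB hxI)⟩, rfl⟩
    · exact Or.inl ⟨⟨hxX', hxI⟩, x, hx, rfl⟩
  have c4 : ∀ Z m, LF (!t) Z m ∈ C → (lo B \ Z).Finite → l ≤ m := by
    intro Z m hZ hf
    refine le_trans hl1 (hC.mono _ _ _ _ _ hl₁ hZ ?_)
    have hR : (R ∩ Sum.inr '' Zᶜ).Finite := by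
      apply key2 _ (G6 _ _ _ hZ)
      refine (hf.image Sum.inr).subset ?_
      rintro _ ⟨⟨hxR, x, hx, rfl⟩, hxS⟩
      refine ⟨x, ⟨?_, hx⟩, rfl⟩
      rintro (hxI | hxS')
      · exact hxR.2 hxI
      · exact hxS hxS'.2
    apply hinr
    refine (hR.union (hf.image Sum.inr)).subset ?_
    rintro _ ⟨x, ⟨hxI, hx⟩, rfl⟩
    by_cases hxX : Sum.inr x ∈ X
    · exact Or.inl ⟨⟨hxX, hxI⟩, x, hx, rfl⟩
    · exact Or.inr ⟨x, ⟨fun hxB => hxX (hBX hxB), hx⟩, rfl⟩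
  -- separation
  have s1 : ∀ B', BF t B' ∈ C → (B \ B').Infinite := by
    intro B' hB' hf
    have hR : (R ∩ B'ᶜ).Finite := by
      apply key1 _ (G2 _ hB')
      refine hf.subset ?_
      rintro x ⟨⟨hxR, hx⟩, hxS⟩
      exact ⟨Or.inr ⟨hxR.1, hxS⟩, hx⟩
    refine hX B' hB' ((hR.union hf).subset ?_)
    rintro x ⟨hxX, hx⟩
    by_cases hxI : x ∈ I
    · exact Or.inr ⟨hIB hxI, hx⟩
    · exact Or.inl ⟨⟨hxX, hxI⟩, hx⟩
  have s2 : ∀ B', BF t B' ∈ C → (B' \ B).Infinite := by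
    intro B' hB' hf
    have hR : (R ∩ B').Finite := by
      apply key2 _ (G1 _ hB')
      refine hf.subset ?_
      rintro x ⟨⟨hxR, hx⟩, hxS⟩
      refine ⟨hx, ?_⟩
      rintro (hxI | hxS')
      · exact hxR.2 hxI
      · exact hxS hxS'.2
    refine hI B' hB' ((hR.union hf).subset ?_)
    rintro x ⟨hx, hxI⟩
    by_cases hxX : x ∈ X
    · exact Or.inl ⟨⟨hxX, hxI⟩, hx⟩
    · exact Or.inr ⟨hx, fun hxB => hxX (hBX hxB)⟩
  have hne : t ≠ !t := by cases t <;> simp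
  refine ⟨B, hIB, hBX, p, l, ?_⟩
  have g1 := hC.add_label t (pt B) p c1 c2
  have g2 := g1.add_label (!t) (lo B) l (by
    rintro Z m (hZ | hZ) hf
    · exact (hne (LF_eq hZ).1.symm).elim
    · exact c3 Z m hZ hf) (by
    rintro Z m (hZ | hZ) hf
    · exact (hne (LF_eq hZ).1.symm).elim
    · exact c4 Z m hZ hf)
  refine g2.add_base t B p l (Or.inr (Or.inl rfl)) (Or.inl rfl) hall ?_
  rintro B' (hB' | hB' | hB')
  · exact (LF_ne_BF hB'.symm).elim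
  · exact (LF_ne_BF hB'.symm).elim
  · exact ⟨s1 B' hB', s2 B' hB'⟩

end cond

end P068
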