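import Mathlib

/-!
# P068: definitions

Infinite matroid intersection and packing/covering, the splitting hypothesis (reaping number
equals the continuum), and the labelled systems used in the construction.
-/

open Set
open scoped Cardinal

namespace P068

/-- The pair `(M, N)` satisfies intersection: some `J` independent in both matroids has a
partition `J = J₁ ∪ J₂` with `cl_M(J₁) ∪ cl_N(J₂) = E`. -/
def SatisfiesIntersection {α : Type*} (M N : Matroid α) : Prop :=
  ∃ J J₁ J₂ : Set α, M.Indep J ∧ N.Indep J ∧ J = J₁ ∪ J₂ ∧ Disjoint J₁ J₂ ∧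
    M.closure J₁ ∪ N.closure J₂ = M.E

/-- A packing/covering partition for a family `M` of matroids with common ground set `E`. -/
def HasPackingCovering {ι α : Type*} (E : Set α) (M : ι → Matroid α) : Prop :=
  ∃ (P C : Set α) (S I : ι → Set α),
    P ∪ C = E ∧ Disjoint P C ∧ (∀ i, S i ⊆ P) ∧ (∀ i, I i ⊆ C) ∧
    (∀ i j, i ≠ j → Disjoint (S i) (S j)) ∧
    (∀ i, ((M i).restrict P).closure (S i) = P) ∧
    (∀ i, (((M i).dual.restrict C).dual).Indep (I i)) ∧
    (⋃ i, I i) = C

/-- The splitting hypothesis: every family of fewer than continuum many infinite sets of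
natural numbers is split by a single set. (The reaping number equals the continuum.) -/
def SplittingHyp : Prop :=
  ∀ D : Set (Set ℕ), #D < 𝔠 → (∀ A ∈ D, A.Infinite) →
    ∃ S : Set ℕ, ∀ A ∈ D, (A ∩ S).Infinite ∧ (A \ S).Infinite

/-- The part of `B` in the parent bundle. -/
def pt (B : Set (ℕ ⊕ ℕ)) : Set ℕ := Sum.inl ⁻¹' B

/-- The part of the child bundle which is not in `B`. -/
def lo (B : Set (ℕ ⊕ ℕ)) : Set ℕ := (Sum.inr ⁻¹' B)ᶜ

/-- Labels: a well-order followed by a reversed copy of it. -/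
abbrev Lab (O : Type) : Type := Lex (O ⊕ Oᵒᵈ)

/-- `W`-labels. -/
def IsW {O : Type} (l : Lab O) : Prop := ∃ a : O, l = Sum.inlₗ a

/-- `V`-labels. -/
def IsV {O : Type} (l : Lab O) : Prop := ∃ a : O, l = Sum.inrₗ (OrderDual.toDual a)

/-- The condition on the labels of the parent part and of the left-over child part of a base. -/
def Allowed {O : Type} [LinearOrder O] (p l : Lab O) : Prop :=
  (IsW p ∧ l < p) ∨ (IsV p ∧ p < l)

/-- The outcome of the recursion. -/
structure LabelledSystem (O : Type) [LinearOrder O] where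
  lam : Bool → Set ℕ → Lab O
  Bs : Bool → Set (Set (ℕ ⊕ ℕ))
  mono : ∀ t Y Z, Y ⊆ Z → lam t Y ≤ lam t Z
  lam_empty : ∀ t, IsW (lam t ∅)
  lam_univ : ∀ t, IsV (lam t univ)
  allowed : ∀ t, ∀ B ∈ Bs t, Allowed (lam t (pt B)) (lam (!t) (lo B))
  antichain : ∀ t, ∀ B ∈ Bs t, ∀ B' ∈ Bs t, B ⊆ B' → B = B'
  decided : ∀ t, ∀ I X : Set (ℕ ⊕ ℕ), I ⊆ X →
    (∃ B ∈ Bs t, X ⊆ B) ∨ (∃ B ∈ Bs t, B ⊆ I) ∨ (∃ B ∈ Bs t, I ⊆ B ∧ B ⊆ X)

/-- A matroid is uniform if every subset of its ground set is independent or spanning. -/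
def IsUniform {α : Type*} (M : Matroid α) : Prop :=
  ∀ X, X ⊆ M.E → M.Indep X ∨ M.Spanning X

end P068
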