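import Vale.Agent.P068.Defs

/-! # P068: balanced finite exchange -/

open Set
open scoped Cardinal

namespace P068

variable {α : Type*}

/-- `A` and `B` differ by a balanced finite exchange. -/
def Eqv (A B : Set α) : Prop :=
  ∃ K : Set α, K.Finite ∧ A \ K = B \ K ∧ (A ∩ K).ncard = (B ∩ K).ncard

lemma Eqv.refl (A : Set α) : Eqv A A := ⟨∅, finite_empty, rfl, rfl⟩

lemma Eqv.symm {A B : Set α} (h : Eqv A B) : Eqv B A := by
  obtain ⟨K, hK, h1, h2⟩ := h
  exact ⟨K, hK, h1.symm, h2.symm⟩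

lemma Eqv.enlarge {A B K K' : Set α} (hK' : K'.Finite) (hKK : K ⊆ K') (h1 : A \ K = B \ K)
    (h2 : (A ∩ K).ncard = (B ∩ K).ncard) :
    A \ K' = B \ K' ∧ (A ∩ K').ncard = (B ∩ K').ncard := by
  constructor
  · ext x
    by_cases hx : x ∈ K'
    · simp [hx]
    · have hxK : x ∉ K := fun h => hx (hKK h)
      have := congrArg (fun S => x ∈ S) h1
      simp [hxK] at this
      simp [hx, this]
  · have hA : A ∩ K' = (A ∩ K) ∪ ((A \ K) ∩ K') := by
      ext x
      by_cases hx : x ∈ K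
      · simp [hx, hKK hx]
      · simp [hx]
    have hB : B ∩ K' = (B ∩ K) ∪ ((B \ K) ∩ K') := by
      ext x
      by_cases hx : x ∈ K
      · simp [hx, hKK hx]
      · simp [hx]
    have hKf : K.Finite := hK'.subset hKK
    rw [hA, hB, ncard_union_eq _ (hKf.subset inter_subset_right) (hK'.subset inter_subset_right),
      ncard_union_eq _ (hKf.subset inter_subset_right) (hK'.subset inter_subset_right), h1, h2]
    · rw [Set.disjoint_left]
      rintro x ⟨_, hx⟩ ⟨⟨_, hx'⟩, _⟩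
      exact hx' hx
    · rw [Set.disjoint_left]
      rintro x ⟨_, hx⟩ ⟨⟨_, hx'⟩, _⟩
      exact hx' hx

lemma Eqv.trans {A B C : Set α} (h : Eqv A B) (h' : Eqv B C) : Eqv A C := by
  obtain ⟨K, hK, h1, h2⟩ := h
  obtain ⟨L, hL, h3, h4⟩ := h'
  have hf : (K ∪ L).Finite := hK.union hL
  obtain ⟨a1, a2⟩ := Eqv.enlarge hf subset_union_left h1 h2
  obtain ⟨b1, b2⟩ := Eqv.enlarge hf subset_union_right h3 h4
  exact ⟨K ∪ L, hf, a1.trans b1, a2.trans b2⟩

lemma Eqv.diff_finite {A B : Set α} (h : Eqv A B) : (A \ B).Finite := by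
  obtain ⟨K, hK, h1, h2⟩ := h
  refine hK.subset ?_
  rintro x ⟨hA, hB⟩
  by_contra hx
  have : x ∈ A \ K := ⟨hA, hx⟩
  rw [h1] at this
  exact hB this.1

lemma Eqv.eq_of_subset {A B : Set α} (h : Eqv A B) (hs : A ⊆ B) : A = B := by
  obtain ⟨K, hK, h1, h2⟩ := h
  have : A ∩ K = B ∩ K := by
    apply Set.eq_of_subset_of_ncard_le (inter_subset_inter_left K hs) h2.ge
      (hK.subset inter_subset_right)
  rw [← Set.inter_union_sdiff A K, ← Set.inter_union_sdiff B K, this, h1]

/-- Exchange lemma. -/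
lemma exch (X B : Set α) (h : (X \ B).Finite ∨ (B \ X).Finite) :
    (∃ B', Eqv B' B ∧ X ⊆ B' ∧ B' ⊆ X ∪ B) ∨ (∃ B', Eqv B' B ∧ X ∩ B ⊆ B' ∧ B' ⊆ X) := by
  by_cases hle : (X \ B).encard ≤ (B \ X).encard
  · left
    have hXB : (X \ B).Finite := by
      rcases h with h | h
      · exact h
      · exact Set.encard_lt_top_iff.1 (lt_of_le_of_lt hle (Set.encard_lt_top_iff.2 h))
    obtain ⟨G, hG, hGc⟩ := Set.exists_subset_encard_eq hle
    have hGf : G.Finite := by
      rw [← Set.encard_lt_top_iff, hGc, Set.encard_lt_top_iff]; exact hXB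
    refine ⟨(B \ G) ∪ (X \ B), ⟨G ∪ (X \ B), hGf.union hXB, ?_, ?_⟩, ?_, ?_⟩
    · ext x
      simp only [mem_sdiff, mem_union]
      tauto
    · have e1 : ((B \ G) ∪ (X \ B)) ∩ (G ∪ (X \ B)) = X \ B := by
        ext x
        have := @hG x
        simp only [mem_inter_iff, mem_sdiff, mem_union] at *
        tauto
      have e2 : B ∩ (G ∪ (X \ B)) = G := by
        ext x
        have := @hG x
        simp only [mem_inter_iff, mem_sdiff, mem_union] at *
        tauto
      rw [e1, e2, Set.ncard_def, Set.ncard_def, hGc]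
    · intro x hx
      have := @hG x
      simp only [mem_sdiff, mem_union] at *
      tauto
    · intro x hx
      simp only [mem_sdiff, mem_union] at *
      tauto
  · right
    push Not at hle
    have hBX : (B \ X).Finite := by
      apply Set.encard_lt_top_iff.1
      exact lt_of_lt_of_le hle le_top
    obtain ⟨G, hG, hGc⟩ := Set.exists_subset_encard_eq hle.le
    have hGf : G.Finite := by
      rw [← Set.encard_lt_top_iff, hGc, Set.encard_lt_top_iff]; exact hBX
    refine ⟨(B ∩ X) ∪ G, ⟨(B \ X) ∪ G, hBX.union hGf, ?_, ?_⟩, ?_, ?_⟩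
    · ext x
      have := @hG x
      simp only [mem_inter_iff, mem_sdiff, mem_union] at *
      tauto
    · have e1 : ((B ∩ X) ∪ G) ∩ ((B \ X) ∪ G) = G := by
        ext x
        have := @hG x
        simp only [mem_inter_iff, mem_sdiff, mem_union] at *
        tauto
      have e2 : B ∩ ((B \ X) ∪ G) = B \ X := by
        ext x
        have := @hG x
        simp only [mem_inter_iff, mem_sdiff, mem_union] at *
        tauto
      rw [e1, e2, Set.ncard_def, Set.ncard_def, hGc]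
    · intro x hx
      simp only [mem_inter_iff, mem_union] at *
      tauto
    · intro x hx
      have := @hG x
      simp only [mem_inter_iff, mem_sdiff, mem_union] at *
      tauto

/-- If `X` is almost contained in `B`, then the class of `B` decides every interval `[I, X]`. -/
lemma decide_upper {I X B : Set α} (hIX : I ⊆ X) (h : (X \ B).Finite) :
    ∃ B', Eqv B' B ∧ (X ⊆ B' ∨ B' ⊆ I ∨ (I ⊆ B' ∧ B' ⊆ X)) := by
  rcases exch X B (Or.inl h) with ⟨B', h1, h2, h3⟩ | ⟨B₁, h1, h2, h3⟩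
  · exact ⟨B', h1, Or.inl h2⟩
  · have hI : (I \ B₁).Finite := by
      refine (h.union h1.symm.diff_finite).subset ?_
      rintro x ⟨hx, hx1⟩
      by_cases hB : x ∈ B
      · exact Or.inr ⟨hB, hx1⟩
      · exact Or.inl ⟨hIX hx, hB⟩
    rcases exch I B₁ (Or.inl hI) with ⟨B', g1, g2, g3⟩ | ⟨B', g1, g2, g3⟩
    · exact ⟨B', g1.trans h1, Or.inr (Or.inr ⟨g2, g3.trans (union_subset hIX h3)⟩)⟩
    · exact ⟨B', g1.trans h1, Or.inr (Or.inl g3)⟩

/-- If `B` is almost contained in `I`, then the class of `B` decides every interval `[I, X]`. -/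
lemma decide_lower {I X B : Set α} (hIX : I ⊆ X) (h : (B \ I).Finite) :
    ∃ B', Eqv B' B ∧ (X ⊆ B' ∨ B' ⊆ I ∨ (I ⊆ B' ∧ B' ⊆ X)) := by
  rcases exch I B (Or.inr h) with ⟨B₁, h1, h2, h3⟩ | ⟨B', h1, h2, h3⟩
  · have hX : (B₁ \ X).Finite := by
      refine (h.union h1.diff_finite).subset ?_
      rintro x ⟨hx, hx1⟩
      by_cases hB : x ∈ B
      · exact Or.inl ⟨hB, fun h => hx1 (hIX h)⟩
      · exact Or.inr ⟨hx, hB⟩
    rcases exch X B₁ (Or.inr hX) with ⟨B', g1, g2, g3⟩ | ⟨B', g1, g2, g3⟩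
    · exact ⟨B', g1.trans h1, Or.inl g2⟩
    · exact ⟨B', g1.trans h1, Or.inr (Or.inr ⟨(subset_inter hIX h2).trans g2, g3⟩)⟩
  · exact ⟨B', h1, Or.inr (Or.inl h3)⟩

end P068
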