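import Vale.Agent.P068.Defs

/-! # P068, Part 2: uniform matroids from antichains -/

open Set
open scoped Cardinal

namespace P068

/-- An antichain deciding all intervals is the set of bases of a uniform matroid. -/
theorem exists_uniform_matroid {α : Type*} (Bs : Set (Set α))
    (anti : ∀ B ∈ Bs, ∀ B' ∈ Bs, B ⊆ B' → B = B')
    (dec : ∀ I X : Set α, I ⊆ X →
      (∃ B ∈ Bs, X ⊆ B) ∨ (∃ B ∈ Bs, B ⊆ I) ∨ (∃ B ∈ Bs, I ⊆ B ∧ B ⊆ X)) :
    ∃ M : Matroid α, M.E = univ ∧ (∀ B, M.IsBase B ↔ B ∈ Bs) ∧ IsUniform M := by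
  let Ind : Set α → Prop := fun I => ∃ B ∈ Bs, I ⊆ B
  have hmax : ∀ B, Maximal Ind B ↔ B ∈ Bs := by
    intro B
    constructor
    · rintro ⟨⟨B', hB', hBB'⟩, h2⟩
      have : B' ⊆ B := h2 ⟨B', hB', Subset.rfl⟩ hBB'
      rwa [Subset.antisymm hBB' this]
    · intro hB
      refine ⟨⟨B, hB, Subset.rfl⟩, ?_⟩
      rintro J ⟨B', hB', hJB'⟩ hBJ
      have := anti B hB B' hB' (hBJ.trans hJB')
      rw [← this] at hJB'
      exact hJB'
  have hex : ∃ B, B ∈ Bs := by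
    rcases dec ∅ univ (empty_subset _) with ⟨B, hB, -⟩ | ⟨B, hB, -⟩ | ⟨B, hB, -⟩ <;>
      exact ⟨B, hB⟩
  let IM : IndepMatroid α :=
  { E := univ
    Indep := Ind
    indep_empty := by
      obtain ⟨B, hB⟩ := hex
      exact ⟨B, hB, empty_subset _⟩
    indep_subset := by
      rintro I J ⟨B, hB, hJ⟩ hIJ
      exact ⟨B, hB, hIJ.trans hJ⟩
    indep_aug := by
      rintro I B ⟨B₁, hB₁, hI⟩ hnot hB
      rw [hmax] at hB hnot
      rcases dec I (I ∪ B) subset_union_left with ⟨B₂, hB₂, h⟩ | ⟨B₂, hB₂, h⟩ | ⟨B₂, hB₂, h, h'⟩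
      · -- I ∪ B is independent, so equal to B
        have e : B = B₂ := anti B hB B₂ hB₂ (subset_union_right.trans h)
        have hIB : I ⊆ B := by rw [e]; exact subset_union_left.trans h
        have hne : I ≠ B := fun hh => hnot (hh ▸ hB)
        obtain ⟨x, hx, hxI⟩ := exists_of_ssubset (hIB.ssubset_of_ne hne)
        exact ⟨x, ⟨hx, hxI⟩, B, hB, insert_subset hx hIB⟩
      · have e : B₂ = B₁ := anti B₂ hB₂ B₁ hB₁ (h.trans hI)
        have : I = B₂ := Subset.antisymm (by rw [e]; exact hI) h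
        exact (hnot (this ▸ hB₂)).elim
      · have hne : I ≠ B₂ := fun hh => hnot (hh ▸ hB₂)
        obtain ⟨x, hx, hxI⟩ := exists_of_ssubset (h.ssubset_of_ne hne)
        refine ⟨x, ⟨?_, hxI⟩, B₂, hB₂, insert_subset hx h⟩
        rcases h' hx with hh | hh
        · exact (hxI hh).elim
        · exact hh
    indep_maximal := by
      rintro X - I ⟨B₁, hB₁, hI⟩ hIX
      rcases dec I X hIX with ⟨B₂, hB₂, h⟩ | ⟨B₂, hB₂, h⟩ | ⟨B₂, hB₂, h, h'⟩
      · exact ⟨X, hIX, ⟨⟨B₂, hB₂, h⟩, Subset.rfl⟩, fun J hJ _ => hJ.2⟩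
      · have e : B₂ = B₁ := anti B₂ hB₂ B₁ hB₁ (h.trans hI)
        have hIe : I = B₂ := Subset.antisymm (by rw [e]; exact hI) h
        refine ⟨I, Subset.rfl, ⟨⟨B₁, hB₁, hI⟩, hIX⟩, fun J hJ hIJ => ?_⟩
        have := ((hmax B₂).2 hB₂).2 hJ.1 (hIe ▸ hIJ)
        rw [hIe]; exact this
      · refine ⟨B₂, h, ⟨⟨B₂, hB₂, Subset.rfl⟩, h'⟩, fun J hJ hIJ => ?_⟩
        exact ((hmax B₂).2 hB₂).2 hJ.1 hIJ
    subset_ground := fun _ _ => subset_univ _ }
  have hbase : ∀ B, IM.matroid.IsBase B ↔ B ∈ Bs := by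
    intro B
    rw [← hmax B]
    rfl
  refine ⟨IM.matroid, rfl, hbase, ?_⟩
  intro X _
  rcases dec X X Subset.rfl with ⟨B, hB, h⟩ | ⟨B, hB, h⟩ | ⟨B, hB, h, h'⟩
  · exact Or.inl ⟨B, hB, h⟩
  · right
    exact ((hbase B).2 hB).spanning.superset h (subset_univ _)
  · exact Or.inl ⟨B, hB, h⟩

end P068
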