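import Vale.Agent.P068.Step
import Vale.Agent.P068.Uniform

/-! # P068, Part 3: the half-line lemma -/

open Set
open scoped Cardinal

namespace P068

/-- Half-line lemma. -/
theorem halfline {O : Type} [LinearOrder O] [WellFoundedLT O] (sys : LabelledSystem O)
    (K : ℕ → Prop) (B : ℕ → Set (ℕ ⊕ ℕ)) (hB : ∀ n, B n ∈ sys.Bs n.bodd)
    (h11 : ∀ n, K n → K (n + 1) → pt (B (n + 1)) ⊆ lo (B n))
    (h00 : ∀ n, ¬ K n → ¬ K (n + 1) → lo (B n) ⊆ pt (B (n + 1)))
    (h10 : ∀ n, K n → ¬ K (n + 1) → lo (B n) = univ)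
    (h01 : ∀ n, ¬ K n → K (n + 1) → lo (B n) = ∅) :
    (K 0 → IsV (sys.lam false (pt (B 0)))) ∧ (¬ K 0 → IsW (sys.lam false (pt (B 0)))) := by
  have hall : ∀ n, Allowed (sys.lam n.bodd (pt (B n))) (sys.lam (n + 1).bodd (lo (B n))) := by
    intro n
    have := sys.allowed n.bodd (B n) (hB n)
    rwa [← Nat.bodd_succ] at this
  have claimA : ∀ a : O, ∀ n, K n → sys.lam n.bodd (pt (B n)) = Sum.inlₗ a → False := by
    intro a
    induction a using WellFoundedLT.induction with
    | ind a ih =>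
      intro n hn hlab
      have h1 : sys.lam (n + 1).bodd (lo (B n)) < Sum.inlₗ a := by
        rcases hall n with h | h
        · rw [hlab] at h; exact h.2
        · rw [hlab] at h; exact (not_isW_of_isV h.1 ⟨a, rfl⟩).elim
      by_cases hK : K (n + 1)
      · have h2 := sys.mono (n + 1).bodd _ _ (h11 n hn hK)
        have h3 := lt_of_le_of_lt h2 h1
        obtain ⟨b, hb⟩ := IsW.of_le (m := Sum.inlₗ a) ⟨a, rfl⟩ h3.le
        rw [hb] at h3
        exact ih b (Sum.Lex.inl_lt_inl_iff.1 h3) (n + 1) hK hb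
      · rw [h10 n hn hK] at h1
        exact not_isW_of_isV (sys.lam_univ _) (IsW.of_le (m := Sum.inlₗ a) ⟨a, rfl⟩ h1.le)
  have claimB : ∀ a : O, ∀ n, ¬ K n →
      sys.lam n.bodd (pt (B n)) = Sum.inrₗ (OrderDual.toDual a) → False := by
    intro a
    induction a using WellFoundedLT.induction with
    | ind a ih =>
      intro n hn hlab
      have h1 : (Sum.inrₗ (OrderDual.toDual a) : Lab O) < sys.lam (n + 1).bodd (lo (B n)) := by
        rcases hall n with h | h
        · rw [hlab] at h; exact (not_isW_of_isV ⟨a, rfl⟩ h.1).elim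
        · rw [hlab] at h; exact h.2
      by_cases hK : K (n + 1)
      · rw [h01 n hn hK] at h1
        exact not_isW_of_isV (IsV.of_le (l := Sum.inrₗ (OrderDual.toDual a)) ⟨a, rfl⟩ h1.le)
          (sys.lam_empty _)
      · have h2 := sys.mono (n + 1).bodd _ _ (h00 n hn hK)
        have h3 := lt_of_lt_of_le h1 h2
        obtain ⟨b, hb⟩ := IsV.of_le (l := Sum.inrₗ (OrderDual.toDual a)) ⟨a, rfl⟩ h3.le
        rw [hb] at h3
        exact ih b (OrderDual.toDual_lt_toDual.1 (Sum.Lex.inr_lt_inr_iff.1 h3)) (n + 1) hK hb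
  constructor
  · intro h0
    rcases isW_or_isV (sys.lam false (pt (B 0))) with h | h
    · obtain ⟨a, ha⟩ := h
      exact (claimA a 0 h0 ha).elim
    · exact h
  · intro h0
    rcases isW_or_isV (sys.lam false (pt (B 0))) with h | h
    · exact h
    · obtain ⟨a, ha⟩ := h
      exact (claimB a 0 h0 ha).elim

end P068
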