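import Vale.Agent.P068.Defs
import Vale.Agent.P068.Uniform
import Vale.Agent.P068.HalfLine

/-! # P068, Part 4: the double ray

Half-edges: `(Bool × ℕ) × (ℕ ⊕ ℕ)`; the vertex `(s, n)` (side `s`, distance `n`) has the parent
bundle `inl k` and the child bundle `inr k`. The edge map identifies `((s, n), inr k)` with
`((s, n+1), inl k)` and `((false, 0), inl k)` with `((true, 0), inl k)`.
-/

open Set
open scoped Cardinal

namespace P068

abbrev HalfEdge : Type := (Bool × ℕ) × (ℕ ⊕ ℕ)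

/-- The edge of a half-edge. -/
def edge : HalfEdge → Option (Bool × ℕ) × ℕ
  | ((s, n), Sum.inr k) => (some (s, n), k)
  | ((s, n + 1), Sum.inl k) => (some (s, n), k)
  | ((_, 0), Sum.inl k) => (none, k)

/-- The direct sum of the matroids `U_{1,2}` on the pairs of half-edges of the edges. -/
def pairMatroid : Matroid HalfEdge := (Matroid.freeOn univ).comap edge

lemma edge_inr {s : Bool} {n k : ℕ} : edge ((s, n), Sum.inr k) = (some (s, n), k) := rfl

lemma edge_inl_succ {s : Bool} {n k : ℕ} : edge ((s, n + 1), Sum.inl k) = (some (s, n), k) := rfl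

lemma edge_inl_zero {s : Bool} {k : ℕ} : edge ((s, 0), Sum.inl k) = (none, k) := rfl

/-- `h` and `h'` are the two half-edges of an edge. -/
def Mate (h h' : HalfEdge) : Prop :=
  h ≠ h' ∧ edge h = edge h' ∧ ∀ x, edge x = edge h → x = h ∨ x = h'

lemma Mate.symm {h h' : HalfEdge} (m : Mate h h') : Mate h' h :=
  ⟨m.1.symm, m.2.1.symm, fun x hx => (m.2.2 x (hx.trans m.2.1.symm)).symm⟩

lemma mate_child (s : Bool) (n k : ℕ) : Mate ((s, n), Sum.inr k) ((s, n + 1), Sum.inl k) := by
  refine ⟨by simp, rfl, ?_⟩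
  rintro ⟨⟨s', n'⟩, k' | k'⟩ hx
  · cases n' with
    | zero => simp [edge] at hx
    | succ m =>
      simp only [edge, Prod.mk.injEq, Option.some.injEq] at hx
      obtain ⟨⟨rfl, rfl⟩, rfl⟩ := hx
      exact Or.inr rfl
  · simp only [edge, Prod.mk.injEq, Option.some.injEq] at hx
    obtain ⟨⟨rfl, rfl⟩, rfl⟩ := hx
    exact Or.inl rfl

lemma mate_root (k : ℕ) : Mate ((false, 0), Sum.inl k) ((true, 0), Sum.inl k) := by
  refine ⟨by simp, rfl, ?_⟩
  rintro ⟨⟨s', n'⟩, k' | k'⟩ hx
  · cases n' with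
    | zero =>
      simp only [edge, Prod.mk.injEq, true_and] at hx
      subst hx
      cases s'
      · exact Or.inl rfl
      · exact Or.inr rfl
    | succ m => simp [edge] at hx
  · simp [edge] at hx

lemma pairMatroid_ground : pairMatroid.E = univ := by
  simp [pairMatroid]

lemma pairMatroid_closure (X : Set HalfEdge) :
    pairMatroid.closure X = edge ⁻¹' (edge '' X) := by
  simp [pairMatroid, Matroid.comap_closure_eq]

lemma pairMatroid_indep {X : Set HalfEdge} : pairMatroid.Indep X ↔ InjOn edge X := by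
  simp [pairMatroid]

/-- The combinatorial content of a solution. -/
lemma solution_kinds (U : Bool × ℕ → Matroid (ℕ ⊕ ℕ)) (hE : ∀ v, (U v).E = univ)
    (hU : ∀ v, IsUniform (U v)) (h : SatisfiesIntersection (Matroid.sum' U) pairMatroid) :
    ∃ (K : Bool × ℕ → Prop) (J : Set HalfEdge),
      (∀ v, K v → (U v).IsBase (Prod.mk v ⁻¹' J)) ∧
      (∀ v, (U v).Indep (Prod.mk v ⁻¹' J)) ∧
      (∀ x x', Mate x x' → ¬ (x ∈ J ∧ x' ∈ J)) ∧
      (∀ x x', Mate x x' → ¬ K x.1 → ¬ K x'.1 → x ∈ J ∨ x' ∈ J) ∧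
      (∀ x x', Mate x x' → K x.1 → ¬ K x'.1 → x ∉ J ∧ x' ∈ J) := by
  obtain ⟨J, J₁, J₂, hM, hN, rfl, hdisj, hcl⟩ := h
  have hME : (Matroid.sum' U).E = univ := by
    rw [Matroid.sum'_ground_eq]
    ext ⟨v, a⟩
    simp [hE]
  rw [hME] at hcl
  have hinj : InjOn edge (J₁ ∪ J₂) := pairMatroid_indep.1 hN
  have hJ₁ : (Matroid.sum' U).Indep J₁ := hM.subset subset_union_left
  have hbasis := hJ₁.isBasis_closure
  rw [Matroid.sum'_isBasis_iff] at hbasis
  have hMv : ∀ v, (U v).Indep (Prod.mk v ⁻¹' (J₁ ∪ J₂)) := Matroid.sum'_indep_iff.1 hM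
  set K : Bool × ℕ → Prop := fun v => (U v).IsBase (Prod.mk v ⁻¹' J₁) with hK
  -- vertices of the second kind take nothing from `J₂`
  have hK1 : ∀ v, K v → Prod.mk v ⁻¹' (J₁ ∪ J₂) = Prod.mk v ⁻¹' J₁ := by
    intro v hv
    exact (hv.eq_of_subset_indep (hMv v) (preimage_mono subset_union_left)).symm
  have hK2 : ∀ x : HalfEdge, K x.1 → x ∉ J₂ := by
    intro x hx hx2
    have : x.2 ∈ Prod.mk x.1 ⁻¹' (J₁ ∪ J₂) := Or.inr hx2
    rw [hK1 x.1 hx] at this
    exact (Set.disjoint_left.1 hdisj) this hx2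
  -- vertices of the first kind
  have hK3 : ∀ x : HalfEdge, ¬ K x.1 → x ∈ J₁ ∨ ∃ y ∈ J₂, edge y = edge x := by
    intro x hx
    have hxu : x ∈ (Matroid.sum' U).closure J₁ ∪ pairMatroid.closure J₂ := by
      rw [hcl]; exact mem_univ x
    rcases hxu with hx1 | hx1
    · left
      have hb := hbasis x.1
      rcases hU x.1 (Prod.mk x.1 ⁻¹' (Matroid.sum' U).closure J₁) (by rw [hE]; exact subset_univ _)
        with hI | hS
      · have := hb.eq_of_subset_indep hI hb.subset Subset.rfl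
        have hx2 : x.2 ∈ Prod.mk x.1 ⁻¹' (Matroid.sum' U).closure J₁ := hx1
        rw [← this] at hx2
        exact hx2
      · exact (hx (hb.isBase_of_spanning hS)).elim
    · right
      rw [pairMatroid_closure] at hx1
      obtain ⟨y, hy, hxy⟩ := hx1
      exact ⟨y, hy, hxy⟩
  refine ⟨K, J₁ ∪ J₂, ?_, hMv, ?_, ?_, ?_⟩
  · intro v hv
    rw [hK1 v hv]; exact hv
  · rintro x x' m ⟨hx, hx'⟩
    exact m.1 (hinj hx hx' m.2.1)
  · intro x x' m hx hx'
    rcases hK3 x hx with h | ⟨y, hy, hxy⟩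
    · exact Or.inl (Or.inl h)
    · rcases m.2.2 y hxy with rfl | rfl
      · exact Or.inl (Or.inr hy)
      · exact Or.inr (Or.inr hy)
  · intro x x' m hx hx'
    have hx'J : x' ∈ J₁ ∪ J₂ := by
      rcases hK3 x' hx' with h | ⟨y, hy, hxy⟩
      · exact Or.inl h
      · rcases m.symm.2.2 y hxy with rfl | rfl
        · exact Or.inr hy
        · exact (hK2 _ hx hy).elim
    exact ⟨fun hxJ => m.1 (hinj hxJ hx'J m.2.1), hx'J⟩

/-- The matroid of the counterexample: a direct sum of countably many uniform matroids. -/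
theorem no_intersection {O : Type} [LinearOrder O] [WellFoundedLT O] (sys : LabelledSystem O) :
    ∃ U : Bool × ℕ → Matroid (ℕ ⊕ ℕ), (∀ v, (U v).E = univ) ∧ (∀ v, IsUniform (U v)) ∧
      ¬ SatisfiesIntersection (Matroid.sum' U) pairMatroid := by
  have hex := fun t => exists_uniform_matroid (sys.Bs t) (sys.antichain t) (sys.decided t)
  choose U₀ hE₀ hB₀ hU₀ using hex
  let U : Bool × ℕ → Matroid (ℕ ⊕ ℕ) := fun v => if v.1 then (U₀ v.2.bodd).dual else U₀ v.2.bodd
  have hE : ∀ v, (U v).E = univ := by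
    rintro ⟨s, n⟩
    cases s <;> simp [U, hE₀]
  have hU : ∀ v, IsUniform (U v) := by
    rintro ⟨s, n⟩
    cases s
    · simpa [U] using hU₀ n.bodd
    · intro X hX
      simp only [U, if_true] at hX ⊢
      rcases hU₀ n.bodd ((U₀ n.bodd).E \ X) sdiff_subset with h | h
      · right
        rw [Matroid.spanning_iff_compl_coindep (M := (U₀ n.bodd).dual) hX]
        simpa [Matroid.Coindep] using h
      · left
        have hX' : X ⊆ (U₀ n.bodd).E := by simpa using hX
        exact (Matroid.coindep_iff_compl_spanning hX').2 h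
  refine ⟨U, hE, hU, fun hsat => ?_⟩
  obtain ⟨K, J, hbase, hind, hT1, hT2, hT3⟩ := solution_kinds U hE hU hsat
  -- bases
  have hBf : ∀ v, ∃ B, (U v).IsBase B ∧ Prod.mk v ⁻¹' J ⊆ B ∧ (K v → B = Prod.mk v ⁻¹' J) := by
    intro v
    by_cases hv : K v
    · exact ⟨_, hbase v hv, Subset.rfl, fun _ => rfl⟩
    · obtain ⟨B, hB, hJB⟩ := (hind v).exists_isBase_superset
      exact ⟨B, hB, hJB, fun h => (hv h).elim⟩
  choose Bf hBf1 hBf2 hBf3 using hBf
  have memJ : ∀ v a, a ∈ Prod.mk v ⁻¹' J ↔ (v, a) ∈ J := fun v a => Iff.rfl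
  -- relations between consecutive vertices
  have r11 : ∀ s n, K (s, n) → K (s, n + 1) → pt (Bf (s, n + 1)) ⊆ lo (Bf (s, n)) := by
    intro s n h1 h2 k hk hk'
    rw [hBf3 _ h1] at hk'
    have hk2 : Sum.inl k ∈ Bf (s, n + 1) := hk
    rw [hBf3 _ h2] at hk2
    exact hT1 _ _ (mate_child s n k) ⟨hk', hk2⟩
  have r00 : ∀ s n, ¬ K (s, n) → ¬ K (s, n + 1) → lo (Bf (s, n)) ⊆ pt (Bf (s, n + 1)) := by
    intro s n h1 h2 k hk
    rcases hT2 _ _ (mate_child s n k) h1 h2 with h | h
    · exact (hk (hBf2 _ h)).elim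
    · exact hBf2 _ h
  have r10 : ∀ s n, K (s, n) → ¬ K (s, n + 1) → lo (Bf (s, n)) = univ := by
    intro s n h1 h2
    rw [eq_univ_iff_forall]
    intro k hk
    rw [hBf3 _ h1] at hk
    exact (hT3 _ _ (mate_child s n k) h1 h2).1 hk
  have r01 : ∀ s n, ¬ K (s, n) → K (s, n + 1) → lo (Bf (s, n)) = ∅ := by
    intro s n h1 h2
    rw [eq_empty_iff_forall_notMem]
    intro k hk
    exact hk (hBf2 _ (hT3 _ _ (mate_child s n k).symm h2 h1).2)
  -- the right side
  have right := halfline sys (fun n => K (false, n)) (fun n => Bf (false, n))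
    (fun n => by
      have := hBf1 (false, n)
      simpa [U, hB₀] using this)
    (r11 false) (r00 false) (r10 false) (r01 false)
  -- the left side
  have hpc : ∀ B : Set (ℕ ⊕ ℕ), pt Bᶜ = (pt B)ᶜ := fun B => rfl
  have hlc : ∀ B : Set (ℕ ⊕ ℕ), lo Bᶜ = (lo B)ᶜ := fun B => rfl
  have left := halfline sys (fun n => ¬ K (true, n)) (fun n => (Bf (true, n))ᶜ)
    (fun n => by
      have h1 := hBf1 (true, n)
      have h2 : (U₀ n.bodd).dual.IsBase (Bf (true, n)) := by simpa [U] using h1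
      have h3 := h2.compl_isBase_of_dual
      rw [hE₀, ← compl_eq_univ_sdiff, hB₀] at h3
      exact h3)
    (fun n h1 h2 => by
      rw [hpc, hlc]
      exact compl_subset_compl.2 (r00 true n h1 h2))
    (fun n h1 h2 => by
      rw [hpc, hlc]
      exact compl_subset_compl.2 (r11 true n (not_not.1 h1) (not_not.1 h2)))
    (fun n h1 h2 => by
      rw [hlc, r01 true n h1 (not_not.1 h2), compl_empty])
    (fun n h1 h2 => by
      rw [hlc, r10 true n (not_not.1 h1) h2, compl_univ])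
  simp only [hpc] at left
  -- the root bundle
  by_cases h1 : K (false, 0) <;> by_cases h2 : K (true, 0)
  · have a := right.1 h1
    have b := left.2 (not_not.2 h2)
    have hsub : pt (Bf (false, 0)) ⊆ (pt (Bf (true, 0)))ᶜ := by
      intro k hk hk'
      have hk2 : Sum.inl k ∈ Bf (false, 0) := hk
      have hk3 : Sum.inl k ∈ Bf (true, 0) := hk'
      rw [hBf3 _ h1] at hk2
      rw [hBf3 _ h2] at hk3
      exact hT1 _ _ (mate_root k) ⟨hk2, hk3⟩
    exact not_isW_of_isV a (b.of_le (sys.mono _ _ _ hsub))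
  · have a := right.1 h1
    have he : pt (Bf (false, 0)) = ∅ := by
      rw [eq_empty_iff_forall_notMem]
      intro k hk
      have hk2 : Sum.inl k ∈ Bf (false, 0) := hk
      rw [hBf3 _ h1] at hk2
      exact (hT3 _ _ (mate_root k) h1 h2).1 hk2
    rw [he] at a
    exact not_isW_of_isV a (sys.lam_empty _)
  · have a := right.2 h1
    have he : pt (Bf (false, 0)) = univ := by
      rw [eq_univ_iff_forall]
      intro k
      exact hBf2 _ (hT3 _ _ (mate_root k).symm h2 h1).2
    rw [he] at a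
    exact not_isW_of_isV (sys.lam_univ _) a
  · have a := right.2 h1
    have b := left.1 h2
    have hsub : (pt (Bf (true, 0)))ᶜ ⊆ pt (Bf (false, 0)) := by
      intro k hk
      rcases hT2 _ _ (mate_root k) h1 h2 with h | h
      · exact hBf2 _ h
      · exact (hk (hBf2 _ h)).elim
    exact not_isW_of_isV (b.of_le (sys.mono _ _ _ hsub)) a

end P068
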