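import Vale.Agent.P068.Defs

/-! # P068, Part 5: a packing/covering partition for `(M, N*)` gives intersection for `(M, N)` -/

open Set
open scoped Cardinal

namespace P068

lemma compl_restrict {α : Type*} (M : Matroid α) (hM : M.E = univ) {P C : Set α}
    (hPC : P ∪ C = univ) (hd : Disjoint P C) : (M.dual.restrict C).dual = M.contract P := by
  have hC : C = M.dual.E \ P := by
    rw [Matroid.dual_ground, hM, ← compl_eq_univ_sdiff]
    exact ((isCompl_iff.2 ⟨hd, codisjoint_iff.2 hPC⟩).compl_eq).symm
  rw [hC, ← Matroid.delete_eq_restrict, Matroid.dual_delete_dual]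

/-- A packing/covering partition for the pair `(M, N*)` yields intersection for `(M, N)`. -/
theorem intersection_of_packingCovering {α : Type*} (M N : Matroid α) (hM : M.E = univ)
    (hN : N.E = univ)
    (h : HasPackingCovering univ (fun i : Bool => if i then N.dual else M)) :
    SatisfiesIntersection M N := by
  obtain ⟨P, C, S, I, hPC, hd, hSP, hIC, hSd, hcl, hind, hIU⟩ := h
  have hS := hSd false true (by simp)
  have hM1 := hcl false
  have hN1 := hcl true
  have hM2 := hind false
  have hN2 := hind true
  simp only [if_true, Bool.false_eq_true, if_false] at hM1 hN1 hM2 hN2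
  have hPE : P ⊆ M.E := by rw [hM]; exact subset_univ _
  have hPE' : P ⊆ N.E := by rw [hN]; exact subset_univ _
  have hCE : C ⊆ N.E := by rw [hN]; exact subset_univ _
  -- `J₁ ⊆ S false` is a basis of `P` in `M`
  have hsp : (M.restrict P).Spanning (S false) := by
    rw [Matroid.spanning_iff_closure_eq (by simpa using hSP false)]
    simpa using hM1
  obtain ⟨J₁, hJ₁b, hJ₁S⟩ := hsp.exists_isBase_subset
  have hJ₁ : M.IsBasis J₁ P := (Matroid.isBase_restrict_iff hPE).1 hJ₁b
  have hMI : M.Indep (I false ∪ J₁) := by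
    rw [compl_restrict M hM hPC hd] at hM2
    exact (hJ₁.contract_indep_iff.1 hM2).1
  -- `J₂ ⊆ C \ I true` is a basis of `C` in `N`
  have hN2' : (N.restrict C).Coindep (I true) := by
    rwa [Matroid.dual_dual] at hN2
  have hsp2 : (N.restrict C).Spanning (C \ I true) := by
    have := hN2'.compl_spanning
    simpa using this
  obtain ⟨J₂, hJ₂b, hJ₂S⟩ := hsp2.exists_isBase_subset
  have hJ₂ : N.IsBasis J₂ C := (Matroid.isBase_restrict_iff hCE).1 hJ₂b
  have hJ₂I : J₂ ⊆ I false := by
    intro x hx
    obtain ⟨hxC, hxI⟩ := hJ₂S hx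
    rw [← hIU] at hxC
    obtain ⟨i, hi⟩ := mem_iUnion.1 hxC
    cases i
    · exact hi
    · exact (hxI hi).elim
  -- `J₁` is independent in the contraction of `N` onto `P`
  have hNJ : N.Indep (J₁ ∪ J₂) := by
    have hsp3 : (N.dual.restrict P).Spanning (S true) := by
      rw [Matroid.spanning_iff_closure_eq (by simpa using hSP true)]
      simpa using hN1
    have hco := hsp3.compl_coindep
    have h3 : ((N.dual.restrict P).dual).Indep (P \ S true) := by simpa using hco
    rw [compl_restrict N hN (by rw [union_comm]; exact hPC) hd.symm] at h3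
    have h4 := h3.subset (show J₁ ⊆ P \ S true from fun x hx =>
      ⟨hJ₁.subset hx, fun hx' => (Set.disjoint_left.1 hS) (hJ₁S hx) hx'⟩)
    exact (hJ₂.contract_indep_iff.1 h4).1
  refine ⟨J₁ ∪ J₂, J₁, J₂, hMI.subset ?_, hNJ, rfl, ?_, ?_⟩
  · exact union_subset subset_union_right (hJ₂I.trans subset_union_left)
  · exact hd.mono hJ₁.subset hJ₂.subset
  · rw [hM, eq_univ_iff_forall]
    intro x
    have hx : x ∈ P ∪ C := by rw [hPC]; exact mem_univ x
    rcases hx with hx | hx
    · exact Or.inl (hJ₁.subset_closure hx)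
    · exact Or.inr (hJ₂.subset_closure hx)

end P068
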