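import Vale.Agent.P068.Defs

/-! # P068: a general transfinite recursion of length continuum -/

open Set
open scoped Cardinal

namespace P068

section
variable {F T : Type}

/-- One step of the recursion: a countable set of new facts, chosen if possible. -/
noncomputable def stepSet (Good : Set F → Prop) (Done : T → Set F → Prop) (C : Set F) (τ : T) :
    Set F :=
  open scoped Classical in
  if h : ∃ A : Set F, A.Countable ∧ Good (C ∪ A) ∧ Done τ (C ∪ A) then h.choose else ∅

lemma stepSet_countable (Good : Set F → Prop) (Done : T → Set F → Prop) (C : Set F) (τ : T) :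
    (stepSet Good Done C τ).Countable := by
  unfold stepSet
  split_ifs with h
  · exact h.choose_spec.1
  · exact countable_empty

lemma stepSet_spec (Good : Set F → Prop) (Done : T → Set F → Prop) (C : Set F) (τ : T)
    (h : ∃ A : Set F, A.Countable ∧ Good (C ∪ A) ∧ Done τ (C ∪ A)) :
    Good (C ∪ stepSet Good Done C τ) ∧ Done τ (C ∪ stepSet Good Done C τ) := by
  unfold stepSet
  rw [dif_pos h]
  exact h.choose_spec.2

theorem recursion [Nonempty T] (hT : #T ≤ 𝔠) (Good : Set F → Prop) (Done : T → Set F → Prop)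
    (C0 : Set F) (hC0 : Good C0) (hC0c : #C0 < 𝔠)
    (h_union : ∀ (ι : Type) [LinearOrder ι] [Nonempty ι] (G : ι → Set F), Monotone G →
      (∀ i, Good (G i)) → Good (⋃ i, G i))
    (h_step : ∀ C, Good C → #C < 𝔠 → ∀ τ : T,
      ∃ C', C ⊆ C' ∧ (C' \ C).Countable ∧ Good C' ∧ Done τ C')
    (h_mono : ∀ τ C C', C ⊆ C' → Done τ C → Done τ C') :
    ∃ C, C0 ⊆ C ∧ Good C ∧ ∀ τ, Done τ C := by
  classical
  set ι : Type := (𝔠 : Cardinal.{0}).ord.ToType with hι
  have hcι : #ι = 𝔠 := Cardinal.mk_ord_toType _
  have : Nonempty ι := by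
    rw [← Cardinal.mk_ne_zero_iff, hcι]
    exact Cardinal.continuum_ne_zero
  -- enumeration of the tasks
  obtain ⟨e, he⟩ : ∃ e : ι → T, Function.Surjective e := by
    have : #T ≤ #ι := by rw [hcι]; exact hT
    obtain ⟨f⟩ := this
    exact ⟨Function.invFun f, Function.invFun_surjective f.injective⟩
  -- the recursion
  let step : (i : ι) → ((j : ι) → j < i → Set F) → Set F := fun i f =>
    stepSet Good Done (C0 ∪ ⋃ j, ⋃ (h : j < i), f j h) (e i)
  let A : ι → Set F := (wellFounded_lt (α := ι)).fix step
  let G : ι → Set F := fun i => C0 ∪ ⋃ j, ⋃ (_ : j < i), A j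
  have hA : ∀ i, A i = stepSet Good Done (G i) (e i) := fun i =>
    WellFounded.fix_eq _ _ _
  have hAc : ∀ i, (A i).Countable := fun i => by
    rw [hA]; exact stepSet_countable _ _ _ _
  have hGc : ∀ i, #(G i) < 𝔠 := by
    intro i
    refine lt_of_le_of_lt (Cardinal.mk_union_le _ _) ?_
    refine Cardinal.add_lt_of_lt Cardinal.aleph0_le_continuum hC0c ?_
    have h1 : (⋃ j, ⋃ (_ : j < i), A j) = ⋃ j : Iio i, A j := by
      ext x; simp
    rw [h1]
    refine lt_of_le_of_lt (Cardinal.mk_iUnion_le _) ?_
    refine Cardinal.mul_lt_of_lt Cardinal.aleph0_le_continuum ?_ ?_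
    · have := Cardinal.mk_Iio_lt (α := ι) i (by rw [hcι]; exact (Ordinal.type_toType _).symm)
      rwa [hcι] at this
    · refine lt_of_le_of_lt (ciSup_le' fun j => ?_) Cardinal.aleph0_lt_continuum
      exact Cardinal.le_aleph0_iff_set_countable.2 (hAc j)
  have hstep : ∀ i, Good (G i) → Good (G i ∪ A i) ∧ Done (e i) (G i ∪ A i) := by
    intro i hi
    rw [hA]
    apply stepSet_spec
    obtain ⟨C', h1, h2, h3, h4⟩ := h_step (G i) hi (hGc i) (e i)
    refine ⟨C' \ G i, h2, ?_, ?_⟩
    · rwa [union_sdiff_cancel h1]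
    · rwa [union_sdiff_cancel h1]
  have hmono : Monotone G := by
    intro i j hij x hx
    rcases hx with hx | hx
    · exact Or.inl hx
    · right
      simp only [mem_iUnion] at hx ⊢
      obtain ⟨k, hk, hx⟩ := hx
      exact ⟨k, lt_of_lt_of_le hk hij, hx⟩
  have hsub : ∀ i j, i < j → G i ∪ A i ⊆ G j := by
    intro i j hij
    apply union_subset (hmono hij.le)
    intro x hx
    right
    simp only [mem_iUnion]
    exact ⟨i, hij, hx⟩
  have hmono' : Monotone fun i => G i ∪ A i := by
    intro i j hij
    rcases eq_or_lt_of_le hij with rfl | h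
    · exact le_rfl
    · exact (hsub i j h).trans subset_union_left
  have hGood : ∀ i, Good (G i) := by
    intro i
    induction i using WellFoundedLT.induction with
    | ind i ih =>
      by_cases hne : Nonempty (Iio i)
      · have : G i = ⋃ j : Iio i, (G j ∪ A j) := by
          apply Subset.antisymm
          · rintro x (hx | hx)
            · obtain ⟨j⟩ := hne
              exact mem_iUnion.2 ⟨j, Or.inl (Or.inl hx)⟩
            · simp only [mem_iUnion] at hx
              obtain ⟨k, hk, hx⟩ := hx
              exact mem_iUnion.2 ⟨⟨k, hk⟩, Or.inr hx⟩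
          · apply iUnion_subset
            rintro ⟨j, hj⟩
            exact hsub j i hj
        rw [this]
        apply h_union (Iio i) (fun j => G j ∪ A j)
        · intro a b hab
          exact hmono' hab
        · rintro ⟨j, hj⟩
          exact (hstep j (ih j hj)).1
      · have : G i = C0 := by
          apply Subset.antisymm
          · rintro x (hx | hx)
            · exact hx
            · simp only [mem_iUnion] at hx
              obtain ⟨k, hk, hx⟩ := hx
              exact (hne ⟨⟨k, hk⟩⟩).elim
          · exact subset_union_left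
        rw [this]; exact hC0
  refine ⟨⋃ i, (G i ∪ A i), ?_, ?_, ?_⟩
  · intro x hx
    obtain ⟨i⟩ := (inferInstance : Nonempty ι)
    exact mem_iUnion.2 ⟨i, Or.inl (Or.inl hx)⟩
  · exact h_union ι _ hmono' fun i => (hstep i (hGood i)).1
  · intro τ
    obtain ⟨i, rfl⟩ := he τ
    exact h_mono _ _ _ (subset_iUnion (fun i => G i ∪ A i) i) (hstep i (hGood i)).2

end

/-- A well-order in which all sets of cardinality less than the continuum are bounded. -/
theorem exists_order : ∃ (O : Type) (_ : LinearOrder O) (_ : WellFoundedLT O), Nonempty O ∧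
    ∀ S : Set O, #S < 𝔠 → ∃ b, ∀ a ∈ S, a < b := by
  refine ⟨(Order.succ (𝔠 : Cardinal.{0})).ord.ToType, inferInstance, inferInstance, ?_, ?_⟩
  · rw [← Cardinal.mk_ne_zero_iff, Cardinal.mk_ord_toType]
    exact (lt_of_le_of_lt zero_le (Order.lt_succ _)).ne'
  · intro S hS
    by_contra hcon
    push Not at hcon
    have hcof : IsCofinal S := fun b => by
      obtain ⟨a, ha, hb⟩ := hcon b
      exact ⟨a, ha, hb⟩
    have h1 := Order.cof_le hcof
    rw [Ordinal.cof_toType, (Cardinal.isRegular_succ Cardinal.aleph0_le_continuum).cof_ord] at h1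
    exact absurd (h1.trans_lt hS) (not_lt.2 (Order.le_succ _))

end P068
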