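import Vale.Agent.P068.Cond

/-! # P068, Part 1: the recursion -/

open Set
open scoped Cardinal

namespace P068

section rec
variable {O : Type} [LinearOrder O]

/-- The class of some committed base decides the interval `[I, X]`. -/
def Dec (C : Set (Fct O)) (t : Bool) (I X : Set (ℕ ⊕ ℕ)) : Prop :=
  ∃ B₀, BF t B₀ ∈ C ∧ ∃ B, Eqv B B₀ ∧ (X ⊆ B ∨ B ⊆ I ∨ (I ⊆ B ∧ B ⊆ X))

/-- The task `(t, I, X)` is done. -/
def Done (τ : Bool × Set (ℕ ⊕ ℕ) × Set (ℕ ⊕ ℕ)) (C : Set (Fct O)) : Prop :=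
  (∃ l, LF τ.1 (pt τ.2.1) l ∈ C) ∧ (τ.2.1 ⊆ τ.2.2 → Dec C τ.1 τ.2.1 τ.2.2)

omit [LinearOrder O] in
lemma Done.mono {τ : Bool × Set (ℕ ⊕ ℕ) × Set (ℕ ⊕ ℕ)} {C C' : Set (Fct O)} (h : C ⊆ C')
    (hd : Done τ C) : Done τ C' := by
  obtain ⟨⟨l, hl⟩, h2⟩ := hd
  refine ⟨⟨l, h hl⟩, fun hIX => ?_⟩
  obtain ⟨B₀, hB₀, hB⟩ := h2 hIX
  exact ⟨B₀, h hB₀, hB⟩

lemma pt_univ : pt univ = univ := rfl
lemma lo_univ : lo univ = ∅ := by simp [lo]
lemma pt_empty : pt ∅ = ∅ := rfl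
lemma lo_empty : lo ∅ = univ := by simp [lo]

lemma pt_diff_finite {A B : Set (ℕ ⊕ ℕ)} (h : (A \ B).Finite) : (pt A \ pt B).Finite := by
  have : pt A \ pt B = Sum.inl ⁻¹' (A \ B) := rfl
  rw [this]
  exact h.preimage Sum.inl_injective.injOn

lemma lo_diff_finite {A B : Set (ℕ ⊕ ℕ)} (h : (A \ B).Finite) : (lo B \ lo A).Finite := by
  have : lo B \ lo A = Sum.inr ⁻¹' (A \ B) := by
    ext x
    simp [lo, and_comm]
  rw [this]
  exact h.preimage Sum.inr_injective.injOn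

lemma isW_of_allowed {p l : Lab O} (h : Allowed p l) (hp : IsW p) : l < p := by
  rcases h with h | h
  · exact h.2
  · exact (not_isW_of_isV h.1 hp).elim

lemma isV_of_allowed {p l : Lab O} (h : Allowed p l) (hp : IsV p) : p < l := by
  rcases h with h | h
  · exact (not_isW_of_isV hp h.1).elim
  · exact h.2

/-- After labelling the four sets, every task can be done. -/
lemma step_core (h : SplittingHyp) (hO : ∀ a b : O, ∃ c, a < c ∧ b < c)
    {C : Set (Fct O)} (hC : Good C) (hc : #C < 𝔠) (t : Bool) (I X : Set (ℕ ⊕ ℕ)) (hIX : I ⊆ X)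
    (pI pX lI lX : Lab O) (hpI : LF t (pt I) pI ∈ C) (hpX : LF t (pt X) pX ∈ C)
    (hlI : LF (!t) (lo I) lI ∈ C) (hlX : LF (!t) (lo X) lX ∈ C) :
    ∃ C', C ⊆ C' ∧ (C' \ C).Countable ∧ Good C' ∧ Dec C' t I X := by
  by_cases hdec : Dec C t I X
  · exact ⟨C, Subset.rfl, by simp, hC, hdec⟩
  have hX : ∀ B, BF t B ∈ C → (X \ B).Infinite := by
    intro B hB hf
    obtain ⟨B', h1, h2⟩ := decide_upper hIX hf
    exact hdec ⟨B, hB, B', h1, h2⟩
  have hI : ∀ B, BF t B ∈ C → (B \ I).Infinite := by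
    intro B hB hf
    obtain ⟨B', h1, h2⟩ := decide_lower hIX hf
    exact hdec ⟨B, hB, B', h1, h2⟩
  -- it is enough to find a generic base
  have fin : ∀ (B : Set (ℕ ⊕ ℕ)) (p l : Lab O),
      Good (insert (BF t B) (insert (LF (!t) (lo B) l) (insert (LF t (pt B) p) C))) →
      (X ⊆ B ∨ B ⊆ I ∨ (I ⊆ B ∧ B ⊆ X)) →
      ∃ C', C ⊆ C' ∧ (C' \ C).Countable ∧ Good C' ∧ Dec C' t I X := by
    intro B p l hg hB
    refine ⟨_, ?_, ?_, hg, B, Or.inl rfl, B, Eqv.refl B, hB⟩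
    · intro x hx
      exact Or.inr (Or.inr (Or.inr hx))
    · refine Set.Countable.mono (s₂ := {BF t B, LF (!t) (lo B) l, LF t (pt B) p}) ?_
        (Set.toFinite _).countable
      rintro x ⟨hx, hx'⟩
      rcases hx with hx | hx | hx | hx
      · exact Or.inl hx
      · exact Or.inr (Or.inl hx)
      · exact Or.inr (Or.inr hx)
      · exact (hx' hx).elim
  by_cases hW : IsW pX ∧ pX ≤ lX
  · -- X is W-obstructed: a base above X
    obtain ⟨v, hv, hvV⟩ := hC.unv t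
    obtain ⟨w, hw, hwW⟩ := hC.emp (!t)
    obtain ⟨B, h1, h2, p, l, hg⟩ := hC.generic h hO hc t X univ (subset_univ _) pX v w lX hpX
      hv (by rw [lo_univ]; exact hw) hlX (fun hh => not_isW_of_isV hvV hh.1)
      (fun hh => not_isW_of_isV hh.1 hW.1)
      (fun B hB hf => hX B hB (hf.subset (sdiff_subset_sdiff_left (subset_univ _)))) (by
        intro B hB hf
        obtain ⟨p, l, hp, hl, hall⟩ := hC.lab t B hB
        have e1 : p ≤ pX := hC.mono _ _ _ _ _ hp hpX (pt_diff_finite hf)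
        have e2 : lX ≤ l := hC.mono _ _ _ _ _ hlX hl (lo_diff_finite hf)
        have e3 : l < p := isW_of_allowed hall (hW.1.of_le e1)
        exact absurd e3 (not_lt.2 (e1.trans (hW.2.trans e2))))
    exact fin B p l hg (Or.inl h1)
  by_cases hV : IsV pI ∧ lI ≤ pI
  · -- I is V-obstructed: a base below I
    obtain ⟨v, hv, hvV⟩ := hC.unv (!t)
    obtain ⟨w, hw, hwW⟩ := hC.emp t
    obtain ⟨B, h1, h2, p, l, hg⟩ := hC.generic h hO hc t ∅ I (empty_subset _) w pI lI v hw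
      hpI hlI (by rw [lo_empty]; exact hv) (fun hh => not_isW_of_isV hV.1 hh.1)
      (fun hh => not_isW_of_isV hh.1 hwW)
      (by
        intro B hB hf
        obtain ⟨p, l, hp, hl, hall⟩ := hC.lab t B hB
        have e1 : pI ≤ p := hC.mono _ _ _ _ _ hpI hp (pt_diff_finite hf)
        have e2 : l ≤ lI := hC.mono _ _ _ _ _ hl hlI (lo_diff_finite hf)
        have e3 : p < l := isV_of_allowed hall (hV.1.of_le e1)
        exact absurd e3 (not_lt.2 (e2.trans (hV.2.trans e1))))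
      (fun B hB hf => hI B hB (hf.subset (sdiff_subset_sdiff_right (empty_subset _))))
    exact fin B p l hg (Or.inr (Or.inl h2))
  obtain ⟨B, h1, h2, p, l, hg⟩ := hC.generic h hO hc t I X hIX pI pX lX lI hpI hpX hlX hlI
    hW hV hX hI
  exact fin B p l hg (Or.inr (Or.inr ⟨h1, h2⟩))

lemma step [WellFoundedLT O] (h : SplittingHyp)
    (hO : ∀ S : Set O, #S < 𝔠 → ∃ b, ∀ a ∈ S, a < b) (C : Set (Fct O)) (hC : Good C)
    (hc : #C < 𝔠) (τ : Bool × Set (ℕ ⊕ ℕ) × Set (ℕ ⊕ ℕ)) :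
    ∃ C', C ⊆ C' ∧ (C' \ C).Countable ∧ Good C' ∧ Done τ C' := by
  obtain ⟨t, I, X⟩ := τ
  have hO2 : ∀ a b : O, ∃ c, a < c ∧ b < c := by
    intro a b
    obtain ⟨c, hc⟩ := hO {a, b} (lt_of_le_of_lt (Cardinal.le_aleph0_iff_set_countable.2
      (Set.toFinite _).countable) Cardinal.aleph0_lt_continuum)
    exact ⟨c, hc a (by simp), hc b (by simp)⟩
  obtain ⟨pI, h1⟩ := hC.label_ext hO hc t (pt I)
  obtain ⟨pX, h2⟩ := h1.label_ext hO (small_insert hc _) t (pt X)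
  obtain ⟨lI, h3⟩ := h2.label_ext hO (small_insert (small_insert hc _) _) (!t) (lo I)
  obtain ⟨lX, h4⟩ := h3.label_ext hO (small_insert (small_insert (small_insert hc _) _) _)
    (!t) (lo X)
  set C₁ := insert (LF (!t) (lo X) lX) (insert (LF (!t) (lo I) lI)
    (insert (LF t (pt X) pX) (insert (LF t (pt I) pI) C))) with hC₁
  have hc₁ : #C₁ < 𝔠 := small_insert (small_insert (small_insert (small_insert hc _) _) _) _
  have hCC₁ : C ⊆ C₁ := fun x hx => Or.inr (Or.inr (Or.inr (Or.inr hx)))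
  have hcount : (C₁ \ C).Countable := by
    refine Set.Countable.mono (s₂ := {LF (!t) (lo X) lX, LF (!t) (lo I) lI, LF t (pt X) pX,
      LF t (pt I) pI}) ?_ (Set.toFinite _).countable
    rintro x ⟨hx, hx'⟩
    rcases hx with hx | hx | hx | hx | hx
    · exact Or.inl hx
    · exact Or.inr (Or.inl hx)
    · exact Or.inr (Or.inr (Or.inl hx))
    · exact Or.inr (Or.inr (Or.inr hx))
    · exact (hx' hx).elim
  have m1 : LF t (pt I) pI ∈ C₁ := Or.inr (Or.inr (Or.inr (Or.inl rfl)))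
  by_cases hIX : I ⊆ X
  · obtain ⟨C', a1, a2, a3, a4⟩ := step_core h hO2 h4 hc₁ t I X hIX pI pX lI lX m1
      (Or.inr (Or.inr (Or.inl rfl))) (Or.inr (Or.inl rfl)) (Or.inl rfl)
    refine ⟨C', hCC₁.trans a1, ?_, a3, ⟨pI, a1 m1⟩, fun _ => a4⟩
    refine (a2.union hcount).mono ?_
    rintro x ⟨hx, hx'⟩
    by_cases hx1 : x ∈ C₁
    · exact Or.inr ⟨hx1, hx'⟩
    · exact Or.inl ⟨hx, hx1⟩
  · exact ⟨C₁, hCC₁, hcount, h4, ⟨pI, m1⟩, fun hh => (hIX hh).elim⟩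

lemma good_iUnion (ι : Type) [LinearOrder ι] [Nonempty ι] (G : ι → Set (Fct O))
    (hG : Monotone G) (hg : ∀ i, Good (G i)) : Good (⋃ i, G i) := by
  have two : ∀ x y : Fct O, x ∈ ⋃ i, G i → y ∈ ⋃ i, G i → ∃ i, x ∈ G i ∧ y ∈ G i := by
    intro x y hx hy
    obtain ⟨i, hi⟩ := mem_iUnion.1 hx
    obtain ⟨j, hj⟩ := mem_iUnion.1 hy
    exact ⟨max i j, hG (le_max_left i j) hi, hG (le_max_right i j) hj⟩
  have sub : ∀ i, G i ⊆ ⋃ i, G i := subset_iUnion G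
  refine ⟨?_, ?_, ?_, ?_, ?_⟩
  · intro s Y l Z m hY hZ hf
    obtain ⟨i, h1, h2⟩ := two _ _ hY hZ
    exact (hg i).mono _ _ _ _ _ h1 h2 hf
  · intro t B B' hB hB' hne
    obtain ⟨i, h1, h2⟩ := two _ _ hB hB'
    exact (hg i).sep _ _ _ h1 h2 hne
  · intro t B hB
    obtain ⟨i, hi⟩ := mem_iUnion.1 hB
    obtain ⟨p, l, h1, h2, h3⟩ := (hg i).lab t B hi
    exact ⟨p, l, sub i h1, sub i h2, h3⟩
  · intro t
    obtain ⟨i⟩ := (inferInstance : Nonempty ι)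
    obtain ⟨l, h1, h2⟩ := (hg i).emp t
    exact ⟨l, sub i h1, h2⟩
  · intro t
    obtain ⟨i⟩ := (inferInstance : Nonempty ι)
    obtain ⟨l, h1, h2⟩ := (hg i).unv t
    exact ⟨l, sub i h1, h2⟩

/-- The initial condition. -/
def init (o : O) : Set (Fct O) :=
  {f | ∃ t, f = LF t ∅ (Sum.inlₗ o) ∨ f = LF t univ (Sum.inrₗ (OrderDual.toDual o))}

lemma good_init (o : O) : Good (init o) := by
  refine ⟨?_, ?_, ?_, ?_, ?_⟩
  · rintro s Y l Z m ⟨t, ht | ht⟩ ⟨t', ht' | ht'⟩ hf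
    · obtain ⟨-, -, rfl⟩ := LF_eq ht
      obtain ⟨-, -, rfl⟩ := LF_eq ht'
      exact le_rfl
    · obtain ⟨-, -, rfl⟩ := LF_eq ht
      obtain ⟨-, -, rfl⟩ := LF_eq ht'
      exact IsW.le_isV ⟨o, rfl⟩ ⟨o, rfl⟩
    · obtain ⟨-, rfl, rfl⟩ := LF_eq ht
      obtain ⟨-, rfl, rfl⟩ := LF_eq ht'
      simp only [sdiff_empty] at hf
      exact (Set.infinite_univ hf).elim
    · obtain ⟨-, -, rfl⟩ := LF_eq ht
      obtain ⟨-, -, rfl⟩ := LF_eq ht'
      exact le_rfl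
  · rintro t B B' ⟨s, hs | hs⟩ _ _
    · exact (LF_ne_BF hs.symm).elim
    · exact (LF_ne_BF hs.symm).elim
  · rintro t B ⟨s, hs | hs⟩
    · exact (LF_ne_BF hs.symm).elim
    · exact (LF_ne_BF hs.symm).elim
  · intro t
    exact ⟨_, ⟨t, Or.inl rfl⟩, o, rfl⟩
  · intro t
    exact ⟨_, ⟨t, Or.inr rfl⟩, o, rfl⟩

omit [LinearOrder O] in
lemma init_small (o : O) : #(init o) < 𝔠 := by
  refine lt_of_le_of_lt (Cardinal.le_aleph0_iff_set_countable.2 ?_) Cardinal.aleph0_lt_continuum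
  refine Set.Countable.mono (s₂ := range (fun t : Bool => LF t ∅ (Sum.inlₗ o)) ∪
    range (fun t : Bool => LF t univ (Sum.inrₗ (OrderDual.toDual o)))) ?_
    ((countable_range _).union (countable_range _))
  rintro f ⟨t, ht | ht⟩
  · exact Or.inl ⟨t, ht.symm⟩
  · exact Or.inr ⟨t, ht.symm⟩

end rec

theorem exists_labelledSystem (h : SplittingHyp) :
    ∃ (O : Type) (_ : LinearOrder O) (_ : WellFoundedLT O), Nonempty (LabelledSystem O) := by
  obtain ⟨O, i1, i2, ⟨o⟩, hO⟩ := exists_order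
  refine ⟨O, i1, i2, ?_⟩
  have hT : #(Bool × Set (ℕ ⊕ ℕ) × Set (ℕ ⊕ ℕ)) ≤ 𝔠 := by
    simp [Cardinal.mk_prod, Cardinal.mk_set]
  obtain ⟨C, -, hC, hdone⟩ := recursion (F := Fct O) (T := Bool × Set (ℕ ⊕ ℕ) × Set (ℕ ⊕ ℕ))
    hT Good Done (init o) (good_init o) (init_small o)
    (fun ι _ _ G hG hg => good_iUnion ι G hG hg)
    (fun C hC hc τ => step h hO C hC hc τ) (fun τ C C' hCC' hd => hd.mono hCC')
  -- labels
  have hlab : ∀ (t : Bool) (Y : Set ℕ), ∃ l, LF t Y l ∈ C := by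
    intro t Y
    have := (hdone (t, Sum.inl '' Y, ∅)).1
    have e : pt (Sum.inl '' Y) = Y := preimage_image_eq _ Sum.inl_injective
    simpa [e] using this
  choose lam hlam using hlab
  have lmono : ∀ t Y Z, (Y \ Z).Finite → lam t Y ≤ lam t Z := fun t Y Z hf =>
    hC.mono _ _ _ _ _ (hlam t Y) (hlam t Z) hf
  have lval : ∀ t Y l, LF t Y l ∈ C → lam t Y = l := by
    intro t Y l hl
    apply le_antisymm
    · exact hC.mono _ _ _ _ _ (hlam t Y) hl (by simp)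
    · exact hC.mono _ _ _ _ _ hl (hlam t Y) (by simp)
  refine ⟨{
    lam := lam
    Bs := fun t => {B | ∃ B₀, BF t B₀ ∈ C ∧ Eqv B B₀}
    mono := ?_
    lam_empty := ?_
    lam_univ := ?_
    allowed := ?_
    antichain := ?_
    decided := ?_ }⟩
  · intro t Y Z hYZ
    exact lmono t Y Z (by rw [sdiff_eq_empty.2 hYZ]; exact finite_empty)
  · intro t
    obtain ⟨l, h1, h2⟩ := hC.emp t
    rw [lval t _ l h1]; exact h2
  · intro t
    obtain ⟨l, h1, h2⟩ := hC.unv t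
    rw [lval t _ l h1]; exact h2
  · rintro t B ⟨B₀, hB₀, hB⟩
    obtain ⟨p, l, h1, h2, h3⟩ := hC.lab t B₀ hB₀
    have e1 : lam t (pt B) = p := by
      rw [← lval t _ p h1]
      exact le_antisymm (lmono _ _ _ (pt_diff_finite hB.diff_finite))
        (lmono _ _ _ (pt_diff_finite hB.symm.diff_finite))
    have e2 : lam (!t) (lo B) = l := by
      rw [← lval (!t) _ l h2]
      exact le_antisymm (lmono _ _ _ (lo_diff_finite hB.symm.diff_finite))
        (lmono _ _ _ (lo_diff_finite hB.diff_finite))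
    rw [e1, e2]; exact h3
  · rintro t B ⟨B₀, hB₀, hB⟩ B' ⟨B₁, hB₁, hB'⟩ hBB'
    by_cases he : B₀ = B₁
    · subst he
      exact (hB.trans hB'.symm).eq_of_subset hBB'
    · exfalso
      apply hC.sep t B₀ B₁ hB₀ hB₁ he
      refine (hB.symm.diff_finite.union hB'.diff_finite).subset ?_
      rintro x ⟨hx, hx'⟩
      by_cases hxB : x ∈ B
      · exact Or.inr ⟨hBB' hxB, hx'⟩
      · exact Or.inl ⟨hx, hxB⟩
  · intro t I X hIX
    obtain ⟨B₀, hB₀, B, hB, hcase⟩ := (hdone (t, I, X)).2 hIX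
    rcases hcase with h1 | h1 | h1
    · exact Or.inl ⟨B, ⟨B₀, hB₀, hB⟩, h1⟩
    · exact Or.inr (Or.inl ⟨B, ⟨B₀, hB₀, hB⟩, h1⟩)
    · exact Or.inr (Or.inr ⟨B, ⟨B₀, hB₀, hB⟩, h1⟩)

end P068
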