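import Vale.Agent.P068.Exch
import Vale.Agent.P068.RecLemma

/-! # P068: conditions and the extension lemmas -/

open Set
open scoped Cardinal

namespace P068

section labels
variable {O : Type} [LinearOrder O]

omit [LinearOrder O] in
lemma isW_or_isV (l : Lab O) : IsW l ∨ IsV l := by
  rcases l with a | b
  · exact Or.inl ⟨a, rfl⟩
  · exact Or.inr ⟨OrderDual.ofDual b, rfl⟩

omit [LinearOrder O] in
lemma not_isW_of_isV {l : Lab O} (h : IsV l) : ¬ IsW l := by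
  rintro ⟨a, rfl⟩
  obtain ⟨b, hb⟩ := h
  exact Sum.inl_ne_inr (congrArg ofLex hb)

lemma IsW.of_le {l m : Lab O} (h : IsW m) (hl : l ≤ m) : IsW l := by
  rcases isW_or_isV l with h' | h'
  · exact h'
  · obtain ⟨a, rfl⟩ := h
    obtain ⟨b, rfl⟩ := h'
    exact (Sum.Lex.not_inr_le_inl hl).elim

lemma IsV.of_le {l m : Lab O} (h : IsV l) (hl : l ≤ m) : IsV m := by
  rcases isW_or_isV m with h' | h'
  · exact (not_isW_of_isV h (h'.of_le hl)).elim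
  · exact h'

lemma IsW.le_isV {l m : Lab O} (h : IsW l) (h' : IsV m) : l ≤ m := by
  obtain ⟨a, rfl⟩ := h
  obtain ⟨b, rfl⟩ := h'
  exact (Sum.Lex.inl_le_inr _ _)

/-- Choice of the labels of a new base. -/
lemma choose_labels (hO : ∀ a b : O, ∃ c, a < c ∧ b < c) {p₀ p₁ l₀ l₁ : Lab O} (hp : p₀ ≤ p₁)
    (hl : l₀ ≤ l₁) (hW : ¬ (IsW p₁ ∧ p₁ ≤ l₀)) (hV : ¬ (IsV p₀ ∧ l₁ ≤ p₀)) :
    ∃ p l, p₀ ≤ p ∧ p ≤ p₁ ∧ l₀ ≤ l ∧ l ≤ l₁ ∧ Allowed p l := by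
  rcases isW_or_isV p₁ with h1 | h1
  · refine ⟨p₁, l₀, hp, le_rfl, le_rfl, hl, Or.inl ⟨h1, ?_⟩⟩
    by_contra h
    exact hW ⟨h1, not_lt.1 h⟩
  · rcases isW_or_isV p₀ with h0 | h0
    · rcases isW_or_isV l₀ with g | g
      · obtain ⟨a, rfl⟩ := h0
        obtain ⟨b, rfl⟩ := g
        obtain ⟨c, hc1, hc2⟩ := hO a b
        refine ⟨Sum.inlₗ c, Sum.inlₗ b, ?_, IsW.le_isV ⟨c, rfl⟩ h1, le_rfl, hl,
          Or.inl ⟨⟨c, rfl⟩, ?_⟩⟩
        · exact Sum.Lex.inl_le_inl_iff.2 hc1.le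
        · exact Sum.Lex.inl_lt_inl_iff.2 hc2
      · obtain ⟨a, rfl⟩ := h1
        obtain ⟨b, rfl⟩ := g
        obtain ⟨c, hc1, hc2⟩ := hO a b
        refine ⟨Sum.inrₗ (OrderDual.toDual c), Sum.inrₗ (OrderDual.toDual b),
          IsW.le_isV h0 ⟨c, rfl⟩, ?_, le_rfl, hl, Or.inr ⟨⟨c, rfl⟩, ?_⟩⟩
        · exact Sum.Lex.inr_le_inr_iff.2 (OrderDual.toDual_le_toDual.2 hc1.le)
        · exact Sum.Lex.inr_lt_inr_iff.2 (OrderDual.toDual_lt_toDual.2 hc2)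
    · refine ⟨p₀, l₁, le_rfl, hp, hl, le_rfl, Or.inr ⟨h0, ?_⟩⟩
      by_contra h
      exact hV ⟨h0, not_lt.1 h⟩

/-- Interpolation in `Lab O`. -/
lemma interpolate [WellFoundedLT O] (hO : ∀ S : Set O, #S < 𝔠 → ∃ b, ∀ a ∈ S, a < b)
    (A B : Set (Lab O)) (hA : #A < 𝔠) (hAB : ∀ a ∈ A, ∀ b ∈ B, a ≤ b) :
    ∃ l, (∀ a ∈ A, a ≤ l) ∧ (∀ b ∈ B, l ≤ b) := by
  by_cases h1 : ∃ b ∈ B, IsW b
  · -- the least W-label in B
    obtain ⟨b, hb, x, rfl⟩ := h1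
    let S : Set O := {x | (Sum.inlₗ x : Lab O) ∈ B}
    have hS : S.Nonempty := ⟨x, hb⟩
    let m := (wellFounded_lt (α := O)).min S hS
    have hm : m ∈ S := WellFounded.min_mem _ _ _
    refine ⟨Sum.inlₗ m, fun a ha => hAB a ha _ hm, fun b hb => ?_⟩
    rcases isW_or_isV b with h | h
    · obtain ⟨y, rfl⟩ := h
      exact Sum.Lex.inl_le_inl_iff.2 (not_lt.1 (WellFounded.not_lt_min _ S hb))
    · exact IsW.le_isV ⟨m, rfl⟩ h
  · by_cases h2 : ∃ a ∈ A, IsV a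
    · obtain ⟨b, hb, x, rfl⟩ := h2
      let S : Set O := {x | (Sum.inrₗ (OrderDual.toDual x) : Lab O) ∈ A}
      have hS : S.Nonempty := ⟨x, hb⟩
      let m := (wellFounded_lt (α := O)).min S hS
      have hm : m ∈ S := WellFounded.min_mem _ _ _
      refine ⟨Sum.inrₗ (OrderDual.toDual m), fun b hb => ?_, fun a ha => hAB _ hm a ha⟩
      rcases isW_or_isV b with h | h
      · exact IsW.le_isV h ⟨m, rfl⟩
      · obtain ⟨y, rfl⟩ := h
        exact Sum.Lex.inr_le_inr_iff.2 (OrderDual.toDual_le_toDual.2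
          (not_lt.1 (WellFounded.not_lt_min _ S hb)))
    · -- all of `A` is W, all of `B` is V
      let S : Set O := {x | (Sum.inlₗ x : Lab O) ∈ A}
      have hS : #S < 𝔠 := by
        refine lt_of_le_of_lt ?_ hA
        refine ⟨⟨fun x => ⟨Sum.inlₗ x.1, x.2⟩, ?_⟩⟩
        rintro ⟨x, hx⟩ ⟨y, hy⟩ hxy
        have : (Sum.inlₗ x : Lab O) = Sum.inlₗ y := congrArg Subtype.val hxy
        have := Sum.inl_injective (toLex.injective this)
        exact Subtype.ext this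
      obtain ⟨b, hb⟩ := hO S hS
      refine ⟨Sum.inlₗ b, fun a ha => ?_, fun c hc => ?_⟩
      · rcases isW_or_isV a with h | h
        · obtain ⟨y, rfl⟩ := h
          exact Sum.Lex.inl_le_inl_iff.2 (hb y ha).le
        · exact (h2 ⟨a, ha, h⟩).elim
      · rcases isW_or_isV c with h | h
        · exact (h1 ⟨c, hc, h⟩).elim
        · exact IsW.le_isV ⟨b, rfl⟩ h

end labels

end P068
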